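import Vale.Agent.Lib.P345.Defs

namespace Vale.Agent.Lib.P345

open MvPolynomial

theorem evG_rename_inl {n : ℕ} {β : Type} (p : MvPolynomial (Fin n) ℤ) (a : Fin n → ℕ)
    (w : β → ℕ) : evG (rename (Sum.inl : Fin n → Fin n ⊕ β) p) a w = pv p a := by
  unfold evG pv
  rw [MvPolynomial.eval_rename]
  rfl

theorem SFG_eq0 {n : ℕ} (p : MvPolynomial (Fin n) ℤ) : SFG {a | pv p a = 0} := by
  refine ⟨Empty, inferInstance, rename Sum.inl p, ?_, ?_⟩
  · intro a
    constructor
    · intro h
      exact ⟨fun e => e.elim, by rw [evG_rename_inl]; exact h⟩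
    · rintro ⟨w, hw⟩
      rw [evG_rename_inl] at hw
      exact hw
  · intro a w w' _ _
    exact Subsingleton.elim _ _

theorem SFG_nonneg {n : ℕ} (p : MvPolynomial (Fin n) ℤ) : SFG {a | 0 ≤ pv p a} := by
  have key : ∀ (a : Fin n → ℕ) (w : Unit → ℕ),
      evG (rename (Sum.inl : Fin n → Fin n ⊕ Unit) p - X (Sum.inr ())) a w
        = pv p a - (w () : ℤ) := by
    intro a w
    have h1 := evG_rename_inl (β := Unit) p a w
    unfold evG at h1 ⊢
    rw [map_sub, h1, MvPolynomial.eval_X]
    rfl
  refine ⟨Unit, inferInstance, rename Sum.inl p - X (Sum.inr ()), ?_, ?_⟩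
  · intro a
    constructor
    · intro h
      have h' : 0 ≤ pv p a := h
      refine ⟨fun _ => (pv p a).toNat, ?_⟩
      rw [key, Int.toNat_of_nonneg h']
      ring
    · rintro ⟨w, hw⟩
      rw [key] at hw
      have : pv p a = (w () : ℤ) := by linarith
      show 0 ≤ pv p a
      rw [this]
      exact Int.natCast_nonneg _
  · intro a w w' hw hw'
    rw [key] at hw hw'
    funext u
    cases u
    have : (w () : ℤ) = (w' () : ℤ) := by linarith
    exact_mod_cast this

end Vale.Agent.Lib.P345
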