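import Vale.Agent.Lib.P345.ExpDefs

namespace Vale.Agent.Lib.P345

open MvPolynomial

private theorem evG_comap {n k : ℕ} {β : Type} (P : MvPolynomial (Fin k ⊕ β) ℤ)
    (q : Fin k → MvPolynomial (Fin n) ℤ) (f : (Fin n → ℕ) → Fin k → ℕ)
    (hq : ∀ u i, pv (q i) u = (f u i : ℤ)) (u : Fin n → ℕ) (w : β → ℕ) :
    evG (bind₁ (Sum.elim (fun i => rename (Sum.inl : Fin n → Fin n ⊕ β) (q i))
      (fun j => X (Sum.inr j))) P) u w = evG P (f u) w := by
  unfold evG
  have h := eval₂Hom_bind₁ (RingHom.id ℤ)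
    (Sum.elim (fun i => (u i : ℤ)) (fun j => (w j : ℤ)))
    (Sum.elim (fun i => rename (Sum.inl : Fin n → Fin n ⊕ β) (q i)) (fun j => X (Sum.inr j))) P
  have e1 : ∀ (σ : Type) (g : σ → ℤ) (p : MvPolynomial σ ℤ),
      eval g p = eval₂Hom (RingHom.id ℤ) g p := fun _ _ _ => rfl
  rw [e1, h, e1]
  congr 2
  funext x
  rcases x with i | j
  · simp only [Sum.elim_inl]
    rw [← e1, eval_rename, ← hq u i]
    rfl
  · simp only [Sum.elim_inr]
    rw [← e1, eval_X]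
    rfl

/-- substituting polynomials with natural values for the parameters -/
theorem SFG_comap {n k : ℕ} {S : Set (Fin k → ℕ)} (hS : SFG S)
    (q : Fin k → MvPolynomial (Fin n) ℤ) (f : (Fin n → ℕ) → Fin k → ℕ)
    (hq : ∀ u i, pv (q i) u = (f u i : ℤ)) : SFG {u : Fin n → ℕ | f u ∈ S} := by
  obtain ⟨β, hβ, P, hrep, hsf⟩ := hS
  refine ⟨β, hβ, bind₁ (Sum.elim (fun i => rename (Sum.inl : Fin n → Fin n ⊕ β) (q i))
      (fun j => X (Sum.inr j))) P, ?_, ?_⟩
  · intro u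
    simp only [evG_comap P q f hq]
    exact hrep (f u)
  · intro u w w' hw hw'
    rw [evG_comap P q f hq] at hw hw'
    exact hsf (f u) w w' hw hw'

theorem FFG_comap {n k : ℕ} {S : Set (Fin k → ℕ)} (hS : FFG S)
    (q : Fin k → MvPolynomial (Fin n) ℤ) (f : (Fin n → ℕ) → Fin k → ℕ)
    (hq : ∀ u i, pv (q i) u = (f u i : ℤ)) : FFG {u : Fin n → ℕ | f u ∈ S} := by
  obtain ⟨β, hβ, P, hrep, hff⟩ := hS
  refine ⟨β, hβ, bind₁ (Sum.elim (fun i => rename (Sum.inl : Fin n → Fin n ⊕ β) (q i))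
      (fun j => X (Sum.inr j))) P, ?_, ?_⟩
  · intro u
    simp only [evG_comap P q f hq]
    exact hrep (f u)
  · intro u
    simp only [evG_comap P q f hq]
    exact hff (f u)

end Vale.Agent.Lib.P345
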