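import Vale.Agent.Lib.P345.ExpDefs

namespace Vale.Agent.Lib.P345

open MvPolynomial

/-- auxiliary variables of the composition: the two intermediate values, then the old ones -/
private abbrev AuxF (β1 β2 βR : Type) : Type := Bool ⊕ (β1 ⊕ (β2 ⊕ βR))

private def mapA (k : ℕ) (β1 β2 βR : Type) : Fin (k + 1) ⊕ β1 → Fin (k + 1) ⊕ AuxF β1 β2 βR
  | Sum.inl i => Fin.lastCases (motive := fun _ => Fin (k + 1) ⊕ AuxF β1 β2 βR)
      (Sum.inr (Sum.inl false)) (fun j => Sum.inl j.castSucc) i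
  | Sum.inr b => Sum.inr (Sum.inr (Sum.inl b))

private def mapB (k : ℕ) (β1 β2 βR : Type) : Fin (k + 1) ⊕ β2 → Fin (k + 1) ⊕ AuxF β1 β2 βR
  | Sum.inl i => Fin.lastCases (motive := fun _ => Fin (k + 1) ⊕ AuxF β1 β2 βR)
      (Sum.inr (Sum.inl true)) (fun j => Sum.inl j.castSucc) i
  | Sum.inr b => Sum.inr (Sum.inr (Sum.inr (Sum.inl b)))

private def mapR (k : ℕ) (β1 β2 βR : Type) : Fin 3 ⊕ βR → Fin (k + 1) ⊕ AuxF β1 β2 βR
  | Sum.inl i => ![Sum.inl (Fin.last k), Sum.inr (Sum.inl false), Sum.inr (Sum.inl true)] i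
  | Sum.inr b => Sum.inr (Sum.inr (Sum.inr (Sum.inr b)))

private theorem evG_mapA {k : ℕ} {β1 β2 βR : Type} (P : MvPolynomial (Fin (k + 1) ⊕ β1) ℤ)
    (a : Fin (k + 1) → ℕ) (w : AuxF β1 β2 βR → ℕ) :
    evG (rename (mapA k β1 β2 βR) P) a w
      = evG P (Fin.snoc (fun i => a i.castSucc) (w (Sum.inl false)) : Fin (k + 1) → ℕ)
          (fun b => w (Sum.inr (Sum.inl b))) := by
  unfold evG
  rw [eval_rename]
  congr 2
  funext x
  rcases x with i | b
  · induction i using Fin.lastCases with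
    | last => simp [mapA]
    | cast j => simp [mapA]
  · simp [mapA]

private theorem evG_mapB {k : ℕ} {β1 β2 βR : Type} (P : MvPolynomial (Fin (k + 1) ⊕ β2) ℤ)
    (a : Fin (k + 1) → ℕ) (w : AuxF β1 β2 βR → ℕ) :
    evG (rename (mapB k β1 β2 βR) P) a w
      = evG P (Fin.snoc (fun i => a i.castSucc) (w (Sum.inl true)) : Fin (k + 1) → ℕ)
          (fun b => w (Sum.inr (Sum.inr (Sum.inl b)))) := by
  unfold evG
  rw [eval_rename]
  congr 2
  funext x
  rcases x with i | b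
  · induction i using Fin.lastCases with
    | last => simp [mapB]
    | cast j => simp [mapB]
  · simp [mapB]

private theorem evG_mapR {k : ℕ} {β1 β2 βR : Type} (P : MvPolynomial (Fin 3 ⊕ βR) ℤ)
    (a : Fin (k + 1) → ℕ) (w : AuxF β1 β2 βR → ℕ) :
    evG (rename (mapR k β1 β2 βR) P) a w
      = evG P ![a (Fin.last k), w (Sum.inl false), w (Sum.inl true)]
          (fun b => w (Sum.inr (Sum.inr (Sum.inr b)))) := by
  unfold evG
  rw [eval_rename]
  congr 2
  funext x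
  rcases x with i | b
  · fin_cases i <;> simp [mapR]
  · simp [mapR]

private theorem three_sq {x y z : ℤ} : x ^ 2 + y ^ 2 + z ^ 2 = 0 ↔ x = 0 ∧ y = 0 ∧ z = 0 := by
  constructor
  · intro h
    refine ⟨?_, ?_, ?_⟩
    · apply (pow_eq_zero_iff (two_ne_zero)).1
      nlinarith [sq_nonneg x, sq_nonneg y, sq_nonneg z]
    · apply (pow_eq_zero_iff (two_ne_zero)).1
      nlinarith [sq_nonneg x, sq_nonneg y, sq_nonneg z]
    · apply (pow_eq_zero_iff (two_ne_zero)).1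
      nlinarith [sq_nonneg x, sq_nonneg y, sq_nonneg z]
  · rintro ⟨rfl, rfl, rfl⟩
    norm_num

/-- composition of a binary operation with two functions, all three given by finite-fold graphs -/
theorem FFG_comp2 {k : ℕ} (g1 g2 : (Fin k → ℕ) → ℕ) (r : ℕ → ℕ → ℕ)
    (h1 : FFG {v : Fin (k + 1) → ℕ | v (Fin.last k) = g1 (fun i => v i.castSucc)})
    (h2 : FFG {v : Fin (k + 1) → ℕ | v (Fin.last k) = g2 (fun i => v i.castSucc)})
    (hr : FFG {v : Fin 3 → ℕ | v 0 = r (v 1) (v 2)}) :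
    FFG {v : Fin (k + 1) → ℕ | v (Fin.last k)
      = r (g1 (fun i => v i.castSucc)) (g2 (fun i => v i.castSucc))} := by
  obtain ⟨β1, i1, P1, rep1, fin1⟩ := h1
  obtain ⟨β2, i2, P2, rep2, fin2⟩ := h2
  obtain ⟨βR, iR, PR, repR, finR⟩ := hr
  have key : ∀ (a : Fin (k + 1) → ℕ) (w : AuxF β1 β2 βR → ℕ),
      evG ((rename (mapA k β1 β2 βR) P1) ^ 2 + (rename (mapB k β1 β2 βR) P2) ^ 2
        + (rename (mapR k β1 β2 βR) PR) ^ 2) a w = 0 ↔
      evG P1 (Fin.snoc (fun i => a i.castSucc) (w (Sum.inl false)) : Fin (k + 1) → ℕ)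
        (fun b => w (Sum.inr (Sum.inl b))) = 0 ∧
      evG P2 (Fin.snoc (fun i => a i.castSucc) (w (Sum.inl true)) : Fin (k + 1) → ℕ)
        (fun b => w (Sum.inr (Sum.inr (Sum.inl b)))) = 0 ∧
      evG PR ![a (Fin.last k), w (Sum.inl false), w (Sum.inl true)]
        (fun b => w (Sum.inr (Sum.inr (Sum.inr b)))) = 0 := by
    intro a w
    rw [← evG_mapA, ← evG_mapB, ← evG_mapR, ← three_sq]
    unfold evG
    simp only [map_add, map_pow]
  have f1 : ∀ (a' : Fin k → ℕ) (y : ℕ),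
      (∃ w, evG P1 (Fin.snoc a' y : Fin (k + 1) → ℕ) w = 0) ↔ y = g1 a' := by
    intro a' y
    rw [← rep1]
    show (Fin.snoc a' y : Fin (k + 1) → ℕ) (Fin.last k)
      = g1 (fun i => (Fin.snoc a' y : Fin (k + 1) → ℕ) i.castSucc) ↔ _
    simp only [Fin.snoc_last, Fin.snoc_castSucc]
  have f2 : ∀ (a' : Fin k → ℕ) (y : ℕ),
      (∃ w, evG P2 (Fin.snoc a' y : Fin (k + 1) → ℕ) w = 0) ↔ y = g2 a' := by
    intro a' y
    rw [← rep2]
    show (Fin.snoc a' y : Fin (k + 1) → ℕ) (Fin.last k)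
      = g2 (fun i => (Fin.snoc a' y : Fin (k + 1) → ℕ) i.castSucc) ↔ _
    simp only [Fin.snoc_last, Fin.snoc_castSucc]
  have fR : ∀ x y z : ℕ, (∃ w, evG PR ![x, y, z] w = 0) ↔ x = r y z := by
    intro x y z
    rw [← repR]
    exact Iff.rfl
  refine ⟨AuxF β1 β2 βR, inferInstance,
    (rename (mapA k β1 β2 βR) P1) ^ 2 + (rename (mapB k β1 β2 βR) P2) ^ 2
        + (rename (mapR k β1 β2 βR) PR) ^ 2, ?_, ?_⟩
  · intro a
    constructor
    · intro ha
      have ha' : a (Fin.last k)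
          = r (g1 fun i => a i.castSucc) (g2 fun i => a i.castSucc) := ha
      obtain ⟨w1, hw1⟩ := (f1 (fun i => a i.castSucc) _).2 rfl
      obtain ⟨w2, hw2⟩ := (f2 (fun i => a i.castSucc) _).2 rfl
      obtain ⟨wR, hwR⟩ := (fR _ _ _).2 ha'
      refine ⟨Sum.elim (fun b : Bool => if b then g2 (fun i => a i.castSucc)
        else g1 (fun i => a i.castSucc)) (Sum.elim w1 (Sum.elim w2 wR)), ?_⟩
      rw [key]
      exact ⟨hw1, hw2, hwR⟩
    · rintro ⟨w, hw⟩
      rw [key] at hw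
      obtain ⟨e1, e2, e3⟩ := hw
      have y1 := (f1 _ _).1 ⟨_, e1⟩
      have y2 := (f2 _ _).1 ⟨_, e2⟩
      have y3 := (fR _ _ _).1 ⟨_, e3⟩
      show a (Fin.last k) = _
      rw [y3, y1, y2]
  · intro a
    have hfin := ((fin1 (Fin.snoc (fun i => a i.castSucc) (g1 (fun i => a i.castSucc)))).prod
      ((fin2 (Fin.snoc (fun i => a i.castSucc) (g2 (fun i => a i.castSucc)))).prod
        (finR ![a (Fin.last k), g1 (fun i => a i.castSucc), g2 (fun i => a i.castSucc)]))).image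
      (fun p : (β1 → ℕ) × ((β2 → ℕ) × (βR → ℕ)) =>
        (Sum.elim (fun b : Bool => if b then g2 (fun i => a i.castSucc)
          else g1 (fun i => a i.castSucc)) (Sum.elim p.1 (Sum.elim p.2.1 p.2.2)) :
          AuxF β1 β2 βR → ℕ))
    apply hfin.subset
    intro w hw
    obtain ⟨e1, e2, e3⟩ := (key a w).1 hw
    have y1 := (f1 _ _).1 ⟨_, e1⟩
    have y2 := (f2 _ _).1 ⟨_, e2⟩
    rw [y1] at e1
    rw [y2] at e2
    rw [y1, y2] at e3
    refine ⟨(fun b => w (Sum.inr (Sum.inl b)), fun b => w (Sum.inr (Sum.inr (Sum.inl b))),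
      fun b => w (Sum.inr (Sum.inr (Sum.inr b)))), ⟨e1, e2, e3⟩, ?_⟩
    funext x
    rcases x with b | x | x | x
    · cases b <;> simp [y1, y2]
    · rfl
    · rfl
    · rfl

end Vale.Agent.Lib.P345
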