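import Vale.Agent.Lib.P345.ExpDefs

namespace Vale.Agent.Lib.P345

open MvPolynomial

/-- renaming for a graph: the last parameter becomes the auxiliary variable `y` -/
private def cmapGS (k : ℕ) (β γ : Type) (y : γ) (emb : β → γ) : Fin (k + 1) ⊕ β → Fin (k + 1) ⊕ γ
  | Sum.inl i => Fin.lastCases (motive := fun _ => Fin (k + 1) ⊕ γ) (Sum.inr y)
      (fun j => Sum.inl j.castSucc) i
  | Sum.inr b => Sum.inr (emb b)

private theorem evG_cmapGS {k : ℕ} {β γ : Type} (y : γ) (emb : β → γ)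
    (P : MvPolynomial (Fin (k + 1) ⊕ β) ℤ) (a : Fin (k + 1) → ℕ) (w : γ → ℕ) :
    evG (rename (cmapGS k β γ y emb) P) a w
      = evG P (Fin.snoc (fun i : Fin k => a i.castSucc) (w y) : Fin (k + 1) → ℕ)
          (fun b => w (emb b)) := by
  unfold evG
  rw [eval_rename]
  congr 2
  funext x
  rcases x with i | b
  · induction i using Fin.lastCases with
    | last => simp [cmapGS]
    | cast j => simp [cmapGS]
  · simp [cmapGS]

/-- renaming for the binary operation -/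
private def cmapRS (k : ℕ) (β γ : Type) (y1 y2 : γ) (emb : β → γ) : Fin 3 ⊕ β → Fin (k + 1) ⊕ γ
  | Sum.inl i => (![Sum.inl (Fin.last k), Sum.inr y1, Sum.inr y2] : Fin 3 → Fin (k + 1) ⊕ γ) i
  | Sum.inr b => Sum.inr (emb b)

private theorem evG_cmapRS {k : ℕ} {β γ : Type} (y1 y2 : γ) (emb : β → γ)
    (P : MvPolynomial (Fin 3 ⊕ β) ℤ) (a : Fin (k + 1) → ℕ) (w : γ → ℕ) :
    evG (rename (cmapRS k β γ y1 y2 emb) P) a w
      = evG P (![a (Fin.last k), w y1, w y2] : Fin 3 → ℕ) (fun b => w (emb b)) := by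
  unfold evG
  rw [eval_rename]
  congr 2
  funext x
  rcases x with i | b
  · fin_cases i <;> simp [cmapRS]
  · simp [cmapRS]

private theorem evG_three_sqS {n : ℕ} {γ : Type} (A B C : MvPolynomial (Fin n ⊕ γ) ℤ)
    (a : Fin n → ℕ) (w : γ → ℕ) :
    evG (A ^ 2 + B ^ 2 + C ^ 2) a w = 0 ↔ evG A a w = 0 ∧ evG B a w = 0 ∧ evG C a w = 0 := by
  have e : evG (A ^ 2 + B ^ 2 + C ^ 2) a w
      = (evG A a w) ^ 2 + (evG B a w) ^ 2 + (evG C a w) ^ 2 := by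
    unfold evG
    simp only [map_add, map_pow]
  rw [e]
  constructor
  · intro h
    have hA : (evG A a w) ^ 2 = 0 := by
      nlinarith [sq_nonneg (evG A a w), sq_nonneg (evG B a w), sq_nonneg (evG C a w)]
    have hB : (evG B a w) ^ 2 = 0 := by
      nlinarith [sq_nonneg (evG A a w), sq_nonneg (evG B a w), sq_nonneg (evG C a w)]
    have hC : (evG C a w) ^ 2 = 0 := by
      nlinarith [sq_nonneg (evG A a w), sq_nonneg (evG B a w), sq_nonneg (evG C a w)]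
    exact ⟨(pow_eq_zero_iff two_ne_zero).1 hA, (pow_eq_zero_iff two_ne_zero).1 hB,
      (pow_eq_zero_iff two_ne_zero).1 hC⟩
  · rintro ⟨h1, h2, h3⟩
    rw [h1, h2, h3]
    norm_num

private theorem mem_graphS {k : ℕ} (g : (Fin k → ℕ) → ℕ) (a' : Fin k → ℕ) (y : ℕ) :
    (Fin.snoc a' y : Fin (k + 1) → ℕ) ∈
      {v : Fin (k + 1) → ℕ | v (Fin.last k) = g (fun i => v i.castSucc)} ↔ y = g a' := by
  show (Fin.snoc a' y : Fin (k + 1) → ℕ) (Fin.last k)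
    = g (fun i => (Fin.snoc a' y : Fin (k + 1) → ℕ) i.castSucc) ↔ y = g a'
  simp only [Fin.snoc_last, Fin.snoc_castSucc]

/-- composition of a binary operation with two functions, all three given by single-fold graphs -/
theorem SFG_comp2 {k : ℕ} (g1 g2 : (Fin k → ℕ) → ℕ) (r : ℕ → ℕ → ℕ)
    (h1 : SFG {v : Fin (k + 1) → ℕ | v (Fin.last k) = g1 (fun i => v i.castSucc)})
    (h2 : SFG {v : Fin (k + 1) → ℕ | v (Fin.last k) = g2 (fun i => v i.castSucc)})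
    (hr : SFG {v : Fin 3 → ℕ | v 0 = r (v 1) (v 2)}) :
    SFG {v : Fin (k + 1) → ℕ | v (Fin.last k)
      = r (g1 (fun i => v i.castSucc)) (g2 (fun i => v i.castSucc))} := by
  obtain ⟨β1, i1, P1, rep1, sf1⟩ := h1
  obtain ⟨β2, i2, P2, rep2, sf2⟩ := h2
  obtain ⟨βR, iR, PR, repR, sfR⟩ := hr
  have memR : ∀ x y1 y2 : ℕ, (![x, y1, y2] : Fin 3 → ℕ) ∈
      {v : Fin 3 → ℕ | v 0 = r (v 1) (v 2)} ↔ x = r y1 y2 := fun _ _ _ => Iff.rfl
  refine ⟨Fin 2 ⊕ (β1 ⊕ (β2 ⊕ βR)), inferInstance,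
    (rename (cmapGS k β1 (Fin 2 ⊕ (β1 ⊕ (β2 ⊕ βR))) (Sum.inl 0)
      (fun b => Sum.inr (Sum.inl b))) P1) ^ 2
    + (rename (cmapGS k β2 (Fin 2 ⊕ (β1 ⊕ (β2 ⊕ βR))) (Sum.inl 1)
      (fun b => Sum.inr (Sum.inr (Sum.inl b)))) P2) ^ 2
    + (rename (cmapRS k βR (Fin 2 ⊕ (β1 ⊕ (β2 ⊕ βR))) (Sum.inl 0) (Sum.inl 1)
      (fun b => Sum.inr (Sum.inr (Sum.inr b)))) PR) ^ 2, ?_, ?_⟩
  · intro a
    constructor
    · intro ha
      have ha' : a (Fin.last k)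
          = r (g1 (fun i => a i.castSucc)) (g2 (fun i => a i.castSucc)) := ha
      obtain ⟨w1, hw1⟩ := (rep1 _).1
        ((mem_graphS g1 (fun i => a i.castSucc) (g1 (fun i => a i.castSucc))).2 rfl)
      obtain ⟨w2, hw2⟩ := (rep2 _).1
        ((mem_graphS g2 (fun i => a i.castSucc) (g2 (fun i => a i.castSucc))).2 rfl)
      obtain ⟨wR, hwR⟩ := (repR _).1 ((memR _ _ _).2 ha')
      refine ⟨Sum.elim ![g1 (fun i => a i.castSucc), g2 (fun i => a i.castSucc)]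
        (Sum.elim w1 (Sum.elim w2 wR)), ?_⟩
      rw [evG_three_sqS, evG_cmapGS, evG_cmapGS, evG_cmapRS]
      exact ⟨hw1, hw2, hwR⟩
    · rintro ⟨w, hw⟩
      rw [evG_three_sqS, evG_cmapGS, evG_cmapGS, evG_cmapRS] at hw
      obtain ⟨hw1, hw2, hwR⟩ := hw
      have e1 := (mem_graphS g1 _ _).1 ((rep1 _).2 ⟨_, hw1⟩)
      have e2 := (mem_graphS g2 _ _).1 ((rep2 _).2 ⟨_, hw2⟩)
      have e3 := (memR _ _ _).1 ((repR _).2 ⟨_, hwR⟩)
      show a (Fin.last k) = r (g1 (fun i => a i.castSucc)) (g2 (fun i => a i.castSucc))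
      rw [e3, e1, e2]
  · intro a w w' hw hw'
    rw [evG_three_sqS, evG_cmapGS, evG_cmapGS, evG_cmapRS] at hw hw'
    obtain ⟨hw1, hw2, hwR⟩ := hw
    obtain ⟨hw1', hw2', hwR'⟩ := hw'
    have e1 := (mem_graphS g1 _ _).1 ((rep1 _).2 ⟨_, hw1⟩)
    have e2 := (mem_graphS g2 _ _).1 ((rep2 _).2 ⟨_, hw2⟩)
    have e1' := (mem_graphS g1 _ _).1 ((rep1 _).2 ⟨_, hw1'⟩)
    have e2' := (mem_graphS g2 _ _).1 ((rep2 _).2 ⟨_, hw2'⟩)
    have y1 : w (Sum.inl 0) = w' (Sum.inl 0) := e1.trans e1'.symm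
    have y2 : w (Sum.inl 1) = w' (Sum.inl 1) := e2.trans e2'.symm
    rw [← y1] at hw1' hwR'
    rw [← y2] at hw2' hwR'
    have r1 := sf1 _ _ _ hw1 hw1'
    have r2 := sf2 _ _ _ hw2 hw2'
    have r3 := sfR _ _ _ hwR hwR'
    funext x
    rcases x with i | b | b | b
    · fin_cases i
      · exact y1
      · exact y2
    · exact congrFun r1 b
    · exact congrFun r2 b
    · exact congrFun r3 b

end Vale.Agent.Lib.P345
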