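import Mathlib

namespace Vale.Agent.Lib.P345

open MvPolynomial

/-- Value of the integer polynomial `P` at the parameters `a` and the auxiliary variables `w`,
all of them natural numbers. -/
noncomputable def ev {n m : ℕ} (P : MvPolynomial (Fin n ⊕ Fin m) ℤ) (a : Fin n → ℕ)
    (w : Fin m → ℕ) : ℤ :=
  MvPolynomial.eval (Sum.elim (fun i => (a i : ℤ)) (fun j => (w j : ℤ))) P

/-- `P` is a Diophantine representation of `S`. -/
def Represents {n m : ℕ} (P : MvPolynomial (Fin n ⊕ Fin m) ℤ) (S : Set (Fin n → ℕ)) : Prop :=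
  ∀ a, a ∈ S ↔ ∃ w, ev P a w = 0

/-- at most one solution `w` for every `a` -/
def IsSingleFold {n m : ℕ} (P : MvPolynomial (Fin n ⊕ Fin m) ℤ) : Prop :=
  ∀ a w w', ev P a w = 0 → ev P a w' = 0 → w = w'

/-- finitely many solutions `w` for every `a` -/
def IsFiniteFold {n m : ℕ} (P : MvPolynomial (Fin n ⊕ Fin m) ℤ) : Prop :=
  ∀ a, {w | ev P a w = 0}.Finite

/-- `S` has a single-fold Diophantine representation. -/
def SF {n : ℕ} (S : Set (Fin n → ℕ)) : Prop :=
  ∃ (m : ℕ) (P : MvPolynomial (Fin n ⊕ Fin m) ℤ), Represents P S ∧ IsSingleFold P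

/-- `S` has a finite-fold Diophantine representation. -/
def FF {n : ℕ} (S : Set (Fin n → ℕ)) : Prop :=
  ∃ (m : ℕ) (P : MvPolynomial (Fin n ⊕ Fin m) ℤ), Represents P S ∧ IsFiniteFold P

/-- value of an integer polynomial in the parameters only -/
noncomputable def pv {n : ℕ} (p : MvPolynomial (Fin n) ℤ) (a : Fin n → ℕ) : ℤ :=
  MvPolynomial.eval (fun i => (a i : ℤ)) p

/-- Quantifier-free formulas over the natural numbers: Boolean combinations of polynomial
equations, polynomial inequalities and divisibilities between polynomial values. -/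
inductive QF (n : ℕ) : Type
  | eq0 (p : MvPolynomial (Fin n) ℤ) : QF n
  | nonneg (p : MvPolynomial (Fin n) ℤ) : QF n
  | dvd (p q : MvPolynomial (Fin n) ℤ) : QF n
  | neg (φ : QF n) : QF n
  | and (φ ψ : QF n) : QF n
  | or (φ ψ : QF n) : QF n

/-- truth of a quantifier-free formula at `a` -/
def QF.holds {n : ℕ} : QF n → (Fin n → ℕ) → Prop
  | QF.eq0 p, a => pv p a = 0
  | QF.nonneg p, a => 0 ≤ pv p a
  | QF.dvd p q, a => pv p a ∣ pv q a
  | QF.neg φ, a => ¬ φ.holds a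
  | QF.and φ ψ, a => φ.holds a ∧ ψ.holds a
  | QF.or φ ψ, a => φ.holds a ∨ ψ.holds a

/-- General form with an arbitrary finite type of auxiliary variables (used in the proofs). -/
noncomputable def evG {n : ℕ} {β : Type} (P : MvPolynomial (Fin n ⊕ β) ℤ) (a : Fin n → ℕ)
    (w : β → ℕ) : ℤ :=
  MvPolynomial.eval (Sum.elim (fun i => (a i : ℤ)) (fun j => (w j : ℤ))) P

def SFG {n : ℕ} (S : Set (Fin n → ℕ)) : Prop :=
  ∃ (β : Type) (_ : Fintype β) (P : MvPolynomial (Fin n ⊕ β) ℤ),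
    (∀ a, a ∈ S ↔ ∃ w, evG P a w = 0) ∧ (∀ a w w', evG P a w = 0 → evG P a w' = 0 → w = w')

def FFG {n : ℕ} (S : Set (Fin n → ℕ)) : Prop :=
  ∃ (β : Type) (_ : Fintype β) (P : MvPolynomial (Fin n ⊕ β) ℤ),
    (∀ a, a ∈ S ↔ ∃ w, evG P a w = 0) ∧ (∀ a, {w | evG P a w = 0}.Finite)

end Vale.Agent.Lib.P345
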