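import Vale.Agent.Lib.P345.Defs

namespace Vale.Agent.Lib.P345

open MvPolynomial

/-- the polynomial used for positive divisibility -/
noncomputable def divPoly {n : ℕ} (p q : MvPolynomial (Fin n) ℤ) :
    MvPolynomial (Fin n ⊕ Fin 3) ℤ :=
  (rename Sum.inl p - 1 - X (Sum.inr 0)) ^ 2
    + (rename Sum.inl q - rename Sum.inl p * (X (Sum.inr 1) - X (Sum.inr 2))) ^ 2
    + (X (Sum.inr 1) * X (Sum.inr 2)) ^ 2

theorem evG_divPoly {n : ℕ} (p q : MvPolynomial (Fin n) ℤ) (a : Fin n → ℕ) (w : Fin 3 → ℕ) :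
    evG (divPoly p q) a w
      = (pv p a - 1 - (w 0 : ℤ)) ^ 2 + (pv q a - pv p a * ((w 1 : ℤ) - (w 2 : ℤ))) ^ 2
        + ((w 1 : ℤ) * (w 2 : ℤ)) ^ 2 := by
  have h1 : ∀ r : MvPolynomial (Fin n) ℤ,
      MvPolynomial.eval (Sum.elim (fun i => (a i : ℤ)) (fun j => (w j : ℤ)))
        (rename Sum.inl r) = pv r a := by
    intro r
    rw [MvPolynomial.eval_rename]
    rfl
  simp only [evG, divPoly, map_add, map_sub, map_mul, map_pow, map_one, h1, MvPolynomial.eval_X,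
    Sum.elim_inr]

theorem three_sq_zero {x y z : ℤ} (h : x ^ 2 + y ^ 2 + z ^ 2 = 0) : x = 0 ∧ y = 0 ∧ z = 0 := by
  have hx : x ^ 2 = 0 := by nlinarith [sq_nonneg x, sq_nonneg y, sq_nonneg z]
  have hy : y ^ 2 = 0 := by nlinarith [sq_nonneg x, sq_nonneg y, sq_nonneg z]
  have hz : z ^ 2 = 0 := by nlinarith [sq_nonneg x, sq_nonneg y, sq_nonneg z]
  exact ⟨pow_eq_zero_iff (two_ne_zero) |>.1 hx, pow_eq_zero_iff (two_ne_zero) |>.1 hy,
    pow_eq_zero_iff (two_ne_zero) |>.1 hz⟩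

theorem SFG_pos_dvd {n : ℕ} (p q : MvPolynomial (Fin n) ℤ) :
    SFG {a | 0 < pv p a ∧ pv p a ∣ pv q a} := by
  refine ⟨Fin 3, inferInstance, divPoly p q, ?_, ?_⟩
  · intro a
    constructor
    · rintro ⟨hpos, k, hk⟩
      rcases le_total 0 k with hk0 | hk0
      · refine ⟨![(pv p a - 1).toNat, k.toNat, 0], ?_⟩
        rw [evG_divPoly]
        have e0 : (((![(pv p a - 1).toNat, k.toNat, 0] : Fin 3 → ℕ) 0 : ℕ) : ℤ) = pv p a - 1 := by
          simp only [Matrix.cons_val_zero]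
          exact Int.toNat_of_nonneg (by omega)
        have e1 : (((![(pv p a - 1).toNat, k.toNat, 0] : Fin 3 → ℕ) 1 : ℕ) : ℤ) = k := by
          simp only [Matrix.cons_val_one, Matrix.cons_val_zero]
          exact Int.toNat_of_nonneg hk0
        have e2 : (((![(pv p a - 1).toNat, k.toNat, 0] : Fin 3 → ℕ) 2 : ℕ) : ℤ) = 0 := by
          simp
        rw [e0, e1, e2, hk]
        ring
      · refine ⟨![(pv p a - 1).toNat, 0, (-k).toNat], ?_⟩
        rw [evG_divPoly]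
        have e0 : (((![(pv p a - 1).toNat, 0, (-k).toNat] : Fin 3 → ℕ) 0 : ℕ) : ℤ)
            = pv p a - 1 := by
          simp only [Matrix.cons_val_zero]
          exact Int.toNat_of_nonneg (by omega)
        have e1 : (((![(pv p a - 1).toNat, 0, (-k).toNat] : Fin 3 → ℕ) 1 : ℕ) : ℤ) = 0 := by
          simp
        have e2 : (((![(pv p a - 1).toNat, 0, (-k).toNat] : Fin 3 → ℕ) 2 : ℕ) : ℤ) = -k := by
          have : ((![(pv p a - 1).toNat, 0, (-k).toNat] : Fin 3 → ℕ) 2 : ℕ) = (-k).toNat := rfl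
          rw [this]
          exact Int.toNat_of_nonneg (by omega)
        rw [e0, e1, e2, hk]
        ring
    · rintro ⟨w, hw⟩
      rw [evG_divPoly] at hw
      obtain ⟨h0, h1, _⟩ := three_sq_zero hw
      refine ⟨?_, ⟨(w 1 : ℤ) - (w 2 : ℤ), ?_⟩⟩
      · have : (0 : ℤ) ≤ (w 0 : ℤ) := Int.natCast_nonneg _
        omega
      · linarith
  · intro a w w' hw hw'
    rw [evG_divPoly] at hw hw'
    obtain ⟨h0, h1, h2⟩ := three_sq_zero hw
    obtain ⟨h0', h1', h2'⟩ := three_sq_zero hw'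
    have hpos : 0 < pv p a := by
      have : (0 : ℤ) ≤ (w 0 : ℤ) := Int.natCast_nonneg _
      omega
    have hk : (w 1 : ℤ) - (w 2 : ℤ) = (w' 1 : ℤ) - (w' 2 : ℤ) := by
      have : pv p a * ((w 1 : ℤ) - (w 2 : ℤ)) = pv p a * ((w' 1 : ℤ) - (w' 2 : ℤ)) := by
        linarith
      exact mul_left_cancel₀ (ne_of_gt hpos) this
    have g0 : w 0 = w' 0 := by
      have : (w 0 : ℤ) = (w' 0 : ℤ) := by linarith
      exact_mod_cast this
    have n1 : (0 : ℤ) ≤ (w 1 : ℤ) := Int.natCast_nonneg _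
    have n2 : (0 : ℤ) ≤ (w 2 : ℤ) := Int.natCast_nonneg _
    have n1' : (0 : ℤ) ≤ (w' 1 : ℤ) := Int.natCast_nonneg _
    have n2' : (0 : ℤ) ≤ (w' 2 : ℤ) := Int.natCast_nonneg _
    have g12 : (w 1 : ℤ) = (w' 1 : ℤ) ∧ (w 2 : ℤ) = (w' 2 : ℤ) := by
      rcases mul_eq_zero.1 h2 with ha | ha <;> rcases mul_eq_zero.1 h2' with hb | hb
      · constructor <;> omega
      · constructor <;> omega
      · constructor <;> omega
      · constructor <;> omega
    funext i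
    fin_cases i
    · exact g0
    · exact_mod_cast g12.1
    · exact_mod_cast g12.2

end Vale.Agent.Lib.P345
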