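import Vale.Agent.Lib.P345.Defs

namespace Vale.Agent.Lib.P345

/-- Exponential terms in `k` variables: built from variables and natural constants by addition,
multiplication and exponentiation. -/
inductive ETerm (k : ℕ) : Type
  | var (i : Fin k) : ETerm k
  | const (c : ℕ) : ETerm k
  | add (s t : ETerm k) : ETerm k
  | mul (s t : ETerm k) : ETerm k
  | pow (s t : ETerm k) : ETerm k

/-- value of an exponential term (`0 ^ 0 = 1`) -/
def ETerm.val {k : ℕ} : ETerm k → (Fin k → ℕ) → ℕ
  | ETerm.var i, v => v i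
  | ETerm.const c, _ => c
  | ETerm.add s t, v => s.val v + t.val v
  | ETerm.mul s t, v => s.val v * t.val v
  | ETerm.pow s t, v => s.val v ^ t.val v

/-- `E1 = E2` is an exponential Diophantine representation of `S` (parameters first, then the `m`
auxiliary variables). -/
def ERepresents {n m : ℕ} (E1 E2 : ETerm (n + m)) (S : Set (Fin n → ℕ)) : Prop :=
  ∀ a, a ∈ S ↔ ∃ w : Fin m → ℕ, E1.val (Fin.append a w) = E2.val (Fin.append a w)

/-- at most one solution `w` for every `a` -/
def EIsSingleFold {n m : ℕ} (E1 E2 : ETerm (n + m)) : Prop :=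
  ∀ (a : Fin n → ℕ) (w w' : Fin m → ℕ), E1.val (Fin.append a w) = E2.val (Fin.append a w) →
    E1.val (Fin.append a w') = E2.val (Fin.append a w') → w = w'

/-- finitely many solutions `w` for every `a` -/
def EIsFiniteFold {n m : ℕ} (E1 E2 : ETerm (n + m)) : Prop :=
  ∀ a : Fin n → ℕ, {w : Fin m → ℕ | E1.val (Fin.append a w) = E2.val (Fin.append a w)}.Finite

/-- `S` has a single-fold exponential Diophantine representation. -/
def ESF {n : ℕ} (S : Set (Fin n → ℕ)) : Prop :=
  ∃ (m : ℕ) (E1 E2 : ETerm (n + m)), ERepresents E1 E2 S ∧ EIsSingleFold E1 E2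

/-- `S` has a finite-fold exponential Diophantine representation. -/
def EFF {n : ℕ} (S : Set (Fin n → ℕ)) : Prop :=
  ∃ (m : ℕ) (E1 E2 : ETerm (n + m)), ERepresents E1 E2 S ∧ EIsFiniteFold E1 E2

/-- the graph of exponentiation: triples `(a, b, c)` with `a = b ^ c` -/
def ExpGraph : Set (Fin 3 → ℕ) := {v | v 0 = v 1 ^ v 2}

end Vale.Agent.Lib.P345
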