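import Vale.Agent.Lib.P345.ExpDefs

namespace Vale.Agent.Lib.P345

theorem expTriv_rep :
    ERepresents (n := 3) (m := 0) (ETerm.var (0 : Fin (3 + 0)))
      (ETerm.pow (ETerm.var (1 : Fin (3 + 0))) (ETerm.var (2 : Fin (3 + 0)))) ExpGraph := by
  intro a
  have key : ∀ w : Fin 0 → ℕ, Fin.append a w = a := fun w => Fin.append_right_nil a w rfl
  constructor
  · intro h
    refine ⟨Fin.elim0, ?_⟩
    simp only [ETerm.val, key]
    exact h
  · rintro ⟨w, hw⟩
    simp only [ETerm.val, key] at hw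
    exact hw

/-- the graph of exponentiation has a single-fold exponential representation (no auxiliary
variables: `m = 0`, `E1 = var 0`, `E2 = pow (var 1) (var 2)`) -/
theorem ESF_ExpGraph : ESF ExpGraph :=
  ⟨0, ETerm.var (0 : Fin (3 + 0)),
    ETerm.pow (ETerm.var (1 : Fin (3 + 0))) (ETerm.var (2 : Fin (3 + 0))), expTriv_rep,
    fun _ w w' _ _ => Subsingleton.elim w w'⟩

theorem EFF_ExpGraph : EFF ExpGraph :=
  ⟨0, ETerm.var (0 : Fin (3 + 0)),
    ETerm.pow (ETerm.var (1 : Fin (3 + 0))) (ETerm.var (2 : Fin (3 + 0))), expTriv_rep,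
    fun _ => Set.toFinite _⟩

end Vale.Agent.Lib.P345
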