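import Mathlib

namespace Vale.Agent.Lib.P345

theorem primrec_factorial : Primrec Nat.factorial := by
  have hf : Primrec₂ (fun (n ih : ℕ) => (n + 1) * ih) :=
    Primrec.nat_mul.comp (Primrec.succ.comp Primrec.fst) Primrec.snd
  refine (Primrec.nat_rec₁ 1 hf).of_eq (fun n => ?_)
  induction n with
  | zero => rfl
  | succ n ih => simp only [Nat.factorial_succ]; rw [← ih]

theorem computable_factorial : Computable Nat.factorial := primrec_factorial.to_comp

end Vale.Agent.Lib.P345
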