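import Mathlib

namespace Vale.Agent.Lib.P345

theorem primrec_fib : Primrec Nat.fib := by
  have h1 : Primrec (fun n : ℕ => ((fun p : ℕ × ℕ => (p.2, p.1 + p.2))^[n] (0, 1))) := by
    have hh : Primrec₂ (fun (_ : ℕ) (p : ℕ × ℕ) => (p.2, p.1 + p.2)) := by
      apply Primrec.pair
      · exact Primrec.snd.comp Primrec.snd
      · exact Primrec.nat_add.comp (Primrec.fst.comp Primrec.snd) (Primrec.snd.comp Primrec.snd)
    exact Primrec.nat_iterate Primrec.id (Primrec.const (0, 1)) hh
  exact (Primrec.fst.comp h1).of_eq fun n => by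
    simp [Nat.fib]

theorem computable_fib : Computable (fun a => Nat.fib (2 * a)) := by
  exact (primrec_fib.comp (Primrec.nat_mul.comp (Primrec.const 2) Primrec.id)).to_comp

end Vale.Agent.Lib.P345
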