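import Vale.Agent.Lib.P345.JR2Defs

namespace Vale.Agent.Lib.P345

/-- the relation `v = F_{2 u}` (even-indexed Fibonacci numbers): pairs `(v, u)` -/
def FibGraph : Set (Fin 2 → ℕ) := {v | v 0 = Nat.fib (2 * v 1)}

theorem FibGraph_eq : FibGraph = GraphFn (fun a => Nat.fib (2 * a)) := rfl

end Vale.Agent.Lib.P345
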