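import Vale.Agent.Lib.P345.JR2Defs

namespace Vale.Agent.Lib.P345

private theorem fib_le_two_pow (n : ℕ) : Nat.fib n ≤ 2 ^ n ∧ Nat.fib (n + 1) ≤ 2 ^ (n + 1) := by
  induction n with
  | zero => simp
  | succ n ih =>
    refine ⟨ih.2, ?_⟩
    rw [Nat.fib_add_two]
    have h1 := ih.1
    have h2 := ih.2
    have e1 : (2:ℕ) ^ (n + 1 + 1) = 2 * 2 ^ (n + 1) := by rw [pow_succ]; ring
    have e2 : (2:ℕ) ^ (n + 1) = 2 * 2 ^ n := by rw [pow_succ]; ring
    omega

private theorem two_pow_le_fib (a : ℕ) (ha : 8 ≤ a) : 2 ^ a ≤ Nat.fib (2 * a) := by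
  induction a, ha using Nat.le_induction with
  | base => norm_num [Nat.fib_add_two]
  | succ n hn ih =>
    have e : 2 * (n + 1) = 2 * n + 2 := by ring
    rw [e, Nat.fib_add_two, pow_succ]
    have := Nat.fib_le_fib_succ (n := 2 * n)
    omega

/-- the even-indexed Fibonacci numbers lie in the growth window -/
theorem expWindow_fib : ExpWindow (fun a => Nat.fib (2 * a)) := by
  intro a ha
  refine ⟨two_pow_le_fib a ha, ?_⟩
  calc Nat.fib (2 * a) ≤ 2 ^ (2 * a) := (fib_le_two_pow (2 * a)).1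
    _ ≤ 2 ^ (3 * (a - 2)) := Nat.pow_le_pow_right (by norm_num) (by omega)
    _ = 8 ^ (a - 2) := by rw [pow_mul]; norm_num
    _ ≤ a ^ (a - 2) := Nat.pow_le_pow_left ha _

end Vale.Agent.Lib.P345
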