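import Vale.Agent.Lib.P345.Defs

namespace Vale.Agent.Lib.P345

open MvPolynomial

/-- the polynomial that represents the intersection -/
noncomputable def interPoly {n : ℕ} {β1 β2 : Type}
    (P1 : MvPolynomial (Fin n ⊕ β1) ℤ) (P2 : MvPolynomial (Fin n ⊕ β2) ℤ) :
    MvPolynomial (Fin n ⊕ (β1 ⊕ β2)) ℤ :=
  (rename (Sum.map id (fun j => Sum.inl j)) P1) ^ 2
    + (rename (Sum.map id (fun j => Sum.inr j)) P2) ^ 2

theorem evG_interPoly {n : ℕ} {β1 β2 : Type}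
    (P1 : MvPolynomial (Fin n ⊕ β1) ℤ) (P2 : MvPolynomial (Fin n ⊕ β2) ℤ)
    (a : Fin n → ℕ) (w : β1 ⊕ β2 → ℕ) :
    evG (interPoly P1 P2) a w =
      (evG P1 a (fun j => w (Sum.inl j))) ^ 2 + (evG P2 a (fun j => w (Sum.inr j))) ^ 2 := by
  have h1 : (Sum.elim (fun i => (a i : ℤ)) (fun j => (w j : ℤ))) ∘
      (Sum.map id (fun j => Sum.inl j) : Fin n ⊕ β1 → Fin n ⊕ (β1 ⊕ β2))
      = Sum.elim (fun i => (a i : ℤ)) (fun j => (w (Sum.inl j) : ℤ)) := by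
    funext x
    cases x <;> rfl
  have h2 : (Sum.elim (fun i => (a i : ℤ)) (fun j => (w j : ℤ))) ∘
      (Sum.map id (fun j => Sum.inr j) : Fin n ⊕ β2 → Fin n ⊕ (β1 ⊕ β2))
      = Sum.elim (fun i => (a i : ℤ)) (fun j => (w (Sum.inr j) : ℤ)) := by
    funext x
    cases x <;> rfl
  unfold evG interPoly
  simp only [map_add, map_pow, eval_rename, h1, h2]

theorem evG_interPoly_eq_zero_iff {n : ℕ} {β1 β2 : Type}
    (P1 : MvPolynomial (Fin n ⊕ β1) ℤ) (P2 : MvPolynomial (Fin n ⊕ β2) ℤ)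
    (a : Fin n → ℕ) (w : β1 ⊕ β2 → ℕ) :
    evG (interPoly P1 P2) a w = 0 ↔
      evG P1 a (fun j => w (Sum.inl j)) = 0 ∧ evG P2 a (fun j => w (Sum.inr j)) = 0 := by
  rw [evG_interPoly]
  constructor
  · intro h
    constructor
    · have : (evG P1 a (fun j => w (Sum.inl j))) ^ 2 = 0 := by
        nlinarith [sq_nonneg (evG P1 a (fun j => w (Sum.inl j))),
          sq_nonneg (evG P2 a (fun j => w (Sum.inr j)))]
      exact pow_eq_zero_iff (two_ne_zero) |>.1 this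
    · have : (evG P2 a (fun j => w (Sum.inr j))) ^ 2 = 0 := by
        nlinarith [sq_nonneg (evG P1 a (fun j => w (Sum.inl j))),
          sq_nonneg (evG P2 a (fun j => w (Sum.inr j)))]
      exact pow_eq_zero_iff (two_ne_zero) |>.1 this
  · rintro ⟨h1, h2⟩
    rw [h1, h2]
    norm_num

theorem represents_inter {n : ℕ} {β1 β2 : Type} {S T : Set (Fin n → ℕ)}
    (P1 : MvPolynomial (Fin n ⊕ β1) ℤ) (P2 : MvPolynomial (Fin n ⊕ β2) ℤ)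
    (h1 : ∀ a, a ∈ S ↔ ∃ w, evG P1 a w = 0) (h2 : ∀ a, a ∈ T ↔ ∃ w, evG P2 a w = 0) :
    ∀ a, a ∈ S ∩ T ↔ ∃ w, evG (interPoly P1 P2) a w = 0 := by
  intro a
  constructor
  · rintro ⟨ha, hb⟩
    obtain ⟨w1, hw1⟩ := (h1 a).1 ha
    obtain ⟨w2, hw2⟩ := (h2 a).1 hb
    exact ⟨Sum.elim w1 w2, (evG_interPoly_eq_zero_iff P1 P2 a _).2 ⟨hw1, hw2⟩⟩
  · rintro ⟨w, hw⟩
    obtain ⟨g1, g2⟩ := (evG_interPoly_eq_zero_iff P1 P2 a w).1 hw
    exact ⟨(h1 a).2 ⟨_, g1⟩, (h2 a).2 ⟨_, g2⟩⟩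

theorem SFG_inter {n : ℕ} {S T : Set (Fin n → ℕ)} (hS : SFG S) (hT : SFG T) : SFG (S ∩ T) := by
  obtain ⟨β1, i1, P1, h1, u1⟩ := hS
  obtain ⟨β2, i2, P2, h2, u2⟩ := hT
  refine ⟨β1 ⊕ β2, inferInstance, interPoly P1 P2, represents_inter P1 P2 h1 h2, ?_⟩
  intro a w w' hw hw'
  obtain ⟨g1, g2⟩ := (evG_interPoly_eq_zero_iff P1 P2 a w).1 hw
  obtain ⟨g1', g2'⟩ := (evG_interPoly_eq_zero_iff P1 P2 a w').1 hw'
  have e1 := u1 a _ _ g1 g1'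
  have e2 := u2 a _ _ g2 g2'
  funext x
  rcases x with x | x
  · exact congrFun e1 x
  · exact congrFun e2 x

theorem FFG_inter {n : ℕ} {S T : Set (Fin n → ℕ)} (hS : FFG S) (hT : FFG T) : FFG (S ∩ T) := by
  obtain ⟨β1, i1, P1, h1, u1⟩ := hS
  obtain ⟨β2, i2, P2, h2, u2⟩ := hT
  refine ⟨β1 ⊕ β2, inferInstance, interPoly P1 P2, represents_inter P1 P2 h1 h2, ?_⟩
  intro a
  have hfin := ((u1 a).prod (u2 a)).image (fun p : (β1 → ℕ) × (β2 → ℕ) => Sum.elim p.1 p.2)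
  apply hfin.subset
  intro w hw
  obtain ⟨g1, g2⟩ := (evG_interPoly_eq_zero_iff P1 P2 a w).1 hw
  refine ⟨(fun j => w (Sum.inl j), fun j => w (Sum.inr j)), ⟨g1, g2⟩, ?_⟩
  funext x
  rcases x with x | x <;> rfl

end Vale.Agent.Lib.P345
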