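import Vale.Agent.Lib.P345.ExpDefs
import Vale.Agent.Lib.P345.Atoms

namespace Vale.Agent.Lib.P345

open MvPolynomial

theorem SFG_addGraph : SFG {v : Fin 3 → ℕ | v 0 = v 1 + v 2} := by
  have h := SFG_eq0 (X 0 - X 1 - X 2 : MvPolynomial (Fin 3) ℤ)
  have e : {v : Fin 3 → ℕ | v 0 = v 1 + v 2}
      = {a | pv (X 0 - X 1 - X 2 : MvPolynomial (Fin 3) ℤ) a = 0} := by
    ext v
    simp only [Set.mem_setOf_eq, pv, map_sub, eval_X]
    constructor
    · intro hv
      rw [hv]
      push_cast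
      ring
    · intro hv
      have : (v 0 : ℤ) = (v 1 : ℤ) + (v 2 : ℤ) := by linarith
      exact_mod_cast this
  rw [e]
  exact h

theorem SFG_mulGraph : SFG {v : Fin 3 → ℕ | v 0 = v 1 * v 2} := by
  have h := SFG_eq0 (X 0 - X 1 * X 2 : MvPolynomial (Fin 3) ℤ)
  have e : {v : Fin 3 → ℕ | v 0 = v 1 * v 2}
      = {a | pv (X 0 - X 1 * X 2 : MvPolynomial (Fin 3) ℤ) a = 0} := by
    ext v
    simp only [Set.mem_setOf_eq, pv, map_sub, map_mul, eval_X]
    constructor
    · intro hv
      rw [hv]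
      push_cast
      ring
    · intro hv
      have : (v 0 : ℤ) = (v 1 : ℤ) * (v 2 : ℤ) := by linarith
      exact_mod_cast this
  rw [e]
  exact h

theorem SFG_varGraph {k : ℕ} (i : Fin k) :
    SFG {v : Fin (k + 1) → ℕ | v (Fin.last k) = v i.castSucc} := by
  have h := SFG_eq0 (X (Fin.last k) - X i.castSucc : MvPolynomial (Fin (k + 1)) ℤ)
  have e : {v : Fin (k + 1) → ℕ | v (Fin.last k) = v i.castSucc}
      = {a | pv (X (Fin.last k) - X i.castSucc : MvPolynomial (Fin (k + 1)) ℤ) a = 0} := by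
    ext v
    simp only [Set.mem_setOf_eq, pv, map_sub, eval_X]
    constructor
    · intro hv
      rw [hv]
      ring
    · intro hv
      have : (v (Fin.last k) : ℤ) = (v i.castSucc : ℤ) := by linarith
      exact_mod_cast this
  rw [e]
  exact h

theorem SFG_constGraph {k : ℕ} (c : ℕ) :
    SFG {v : Fin (k + 1) → ℕ | v (Fin.last k) = c} := by
  have h := SFG_eq0 (X (Fin.last k) - C (c : ℤ) : MvPolynomial (Fin (k + 1)) ℤ)
  have e : {v : Fin (k + 1) → ℕ | v (Fin.last k) = c}
      = {a | pv (X (Fin.last k) - C (c : ℤ) : MvPolynomial (Fin (k + 1)) ℤ) a = 0} := by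
    ext v
    simp only [Set.mem_setOf_eq, pv, map_sub, eval_X, eval_C]
    constructor
    · intro hv
      rw [hv]
      ring
    · intro hv
      have : (v (Fin.last k) : ℤ) = (c : ℤ) := by linarith
      exact_mod_cast this
  rw [e]
  exact h

end Vale.Agent.Lib.P345
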