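import Vale.Agent.Lib.P345.Defs

namespace Vale.Agent.Lib.P345

open MvPolynomial

/-- the renaming of variables: the last parameter becomes the auxiliary variable `none` -/
def projMap (n : ℕ) (β : Type) : Fin (n + 1) ⊕ β → Fin n ⊕ Option β
  | Sum.inl i => Fin.lastCases (motive := fun _ => Fin n ⊕ Option β) (Sum.inr none)
      (fun j => Sum.inl j) i
  | Sum.inr b => Sum.inr (some b)

theorem evG_projMap {n : ℕ} {β : Type} (P : MvPolynomial (Fin (n + 1) ⊕ β) ℤ) (a : Fin n → ℕ)
    (w : Option β → ℕ) :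
    evG (rename (projMap n β) P) a w
      = evG P (Fin.snoc a (w none) : Fin (n + 1) → ℕ) (fun b => w (some b)) := by
  unfold evG
  rw [eval_rename]
  congr 2
  funext x
  rcases x with i | b
  · induction i using Fin.lastCases with
    | last => simp [projMap]
    | cast j => simp [projMap]
  · simp [projMap]

/-- projection along a coordinate that is determined by the others -/
theorem SFG_proj {n : ℕ} {T : Set (Fin (n + 1) → ℕ)} (hT : SFG T)
    (hu : ∀ (a : Fin n → ℕ) (y y' : ℕ), (Fin.snoc a y : Fin (n + 1) → ℕ) ∈ T →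
      (Fin.snoc a y' : Fin (n + 1) → ℕ) ∈ T → y = y') :
    SFG {a : Fin n → ℕ | ∃ y : ℕ, (Fin.snoc a y : Fin (n + 1) → ℕ) ∈ T} := by
  obtain ⟨β, hβ, P, hrep, hsf⟩ := hT
  refine ⟨Option β, inferInstance, rename (projMap n β) P, ?_, ?_⟩
  · intro a
    constructor
    · rintro ⟨y, hy⟩
      obtain ⟨w0, hw0⟩ := (hrep _).1 hy
      refine ⟨fun o => o.elim y w0, ?_⟩
      rw [evG_projMap]
      exact hw0
    · rintro ⟨w, hw⟩
      rw [evG_projMap] at hw
      exact ⟨w none, (hrep _).2 ⟨_, hw⟩⟩
  · intro a w w' hw hw'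
    rw [evG_projMap] at hw hw'
    have hy : w none = w' none := hu a _ _ ((hrep _).2 ⟨_, hw⟩) ((hrep _).2 ⟨_, hw'⟩)
    rw [← hy] at hw'
    have hr := hsf _ _ _ hw hw'
    funext o
    cases o with
    | none => exact hy
    | some b => exact congrFun hr b

/-- projection along a coordinate that takes finitely many values -/
theorem FFG_proj {n : ℕ} {T : Set (Fin (n + 1) → ℕ)} (hT : FFG T)
    (hu : ∀ a : Fin n → ℕ, {y : ℕ | (Fin.snoc a y : Fin (n + 1) → ℕ) ∈ T}.Finite) :
    FFG {a : Fin n → ℕ | ∃ y : ℕ, (Fin.snoc a y : Fin (n + 1) → ℕ) ∈ T} := by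
  obtain ⟨β, hβ, P, hrep, hff⟩ := hT
  refine ⟨Option β, inferInstance, rename (projMap n β) P, ?_, ?_⟩
  · intro a
    constructor
    · rintro ⟨y, hy⟩
      obtain ⟨w0, hw0⟩ := (hrep _).1 hy
      refine ⟨fun o => o.elim y w0, ?_⟩
      rw [evG_projMap]
      exact hw0
    · rintro ⟨w, hw⟩
      rw [evG_projMap] at hw
      exact ⟨w none, (hrep _).2 ⟨_, hw⟩⟩
  · intro a
    let F : (Option β → ℕ) → ℕ × (β → ℕ) := fun w => (w none, fun b => w (some b))
    have hF : Function.Injective F := by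
      intro w w' h
      have h1 : w none = w' none := congrArg Prod.fst h
      have h2 : (fun b => w (some b)) = (fun b => w' (some b)) := congrArg Prod.snd h
      funext o
      cases o with
      | none => exact h1
      | some b => exact congrFun h2 b
    have hA : (⋃ y ∈ {y : ℕ | (Fin.snoc a y : Fin (n + 1) → ℕ) ∈ T},
        (Prod.mk y) '' {w0 : β → ℕ | evG P (Fin.snoc a y : Fin (n + 1) → ℕ) w0 = 0}).Finite :=
      Set.Finite.biUnion (hu a) (fun y _ => (hff _).image _)
    refine (hA.preimage (hF.injOn)).subset ?_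
    intro w hw
    have hw' : evG (rename (projMap n β) P) a w = 0 := hw
    rw [evG_projMap] at hw'
    simp only [Set.mem_preimage, Set.mem_iUnion]
    exact ⟨w none, (hrep _).2 ⟨_, hw'⟩, ⟨fun b => w (some b), hw', rfl⟩⟩

end Vale.Agent.Lib.P345
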