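import Vale.Agent.Lib.P345.Defs

namespace Vale.Agent.Lib.P345

open MvPolynomial

/-- renaming the auxiliary variables along an equivalence -/
private theorem ev_rename {n m : ℕ} {β : Type} (e : β ≃ Fin m) (P : MvPolynomial (Fin n ⊕ β) ℤ)
    (a : Fin n → ℕ) (w : Fin m → ℕ) :
    ev (rename (Sum.map id e) P) a w = evG P a (w ∘ e) := by
  unfold ev evG
  rw [MvPolynomial.eval_rename]
  congr 2
  funext x
  rcases x with i | j <;> simp

private theorem comp_symm_comp {m : ℕ} {β : Type} (e : β ≃ Fin m) (w : β → ℕ) :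
    (w ∘ e.symm) ∘ e = w := by
  funext x
  simp

private theorem comp_inj {m : ℕ} {β : Type} (e : β ≃ Fin m) :
    Function.Injective (fun w : Fin m → ℕ => w ∘ e) := by
  intro w w' h
  funext y
  have := congrFun h (e.symm y)
  simpa using this

theorem SF_of_SFG {n : ℕ} {S : Set (Fin n → ℕ)} (h : SFG S) : SF S := by
  obtain ⟨β, hβ, P, hrep, hsf⟩ := h
  let e : β ≃ Fin (Fintype.card β) := Fintype.equivFin β
  refine ⟨Fintype.card β, rename (Sum.map id e) P, ?_, ?_⟩
  · intro a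
    rw [hrep a]
    constructor
    · rintro ⟨w, hw⟩
      refine ⟨w ∘ e.symm, ?_⟩
      rw [ev_rename, comp_symm_comp]
      exact hw
    · rintro ⟨w, hw⟩
      rw [ev_rename] at hw
      exact ⟨w ∘ e, hw⟩
  · intro a w w' hw hw'
    rw [ev_rename] at hw hw'
    exact comp_inj e (hsf a _ _ hw hw')

theorem SFG_of_SF {n : ℕ} {S : Set (Fin n → ℕ)} (h : SF S) : SFG S := by
  obtain ⟨m, P, hrep, hsf⟩ := h
  exact ⟨Fin m, inferInstance, P, hrep, hsf⟩

theorem FF_of_FFG {n : ℕ} {S : Set (Fin n → ℕ)} (h : FFG S) : FF S := by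
  obtain ⟨β, hβ, P, hrep, hff⟩ := h
  let e : β ≃ Fin (Fintype.card β) := Fintype.equivFin β
  refine ⟨Fintype.card β, rename (Sum.map id e) P, ?_, ?_⟩
  · intro a
    rw [hrep a]
    constructor
    · rintro ⟨w, hw⟩
      refine ⟨w ∘ e.symm, ?_⟩
      rw [ev_rename, comp_symm_comp]
      exact hw
    · rintro ⟨w, hw⟩
      rw [ev_rename] at hw
      exact ⟨w ∘ e, hw⟩
  · intro a
    have h1 : {w : Fin (Fintype.card β) → ℕ | ev (rename (Sum.map id e) P) a w = 0}
        = (fun w : Fin (Fintype.card β) → ℕ => w ∘ e) ⁻¹' {w | evG P a w = 0} := by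
      ext w
      show ev (rename (Sum.map id e) P) a w = 0 ↔ evG P a (w ∘ e) = 0
      rw [ev_rename]
    rw [h1]
    exact (hff a).preimage (comp_inj e).injOn

theorem FFG_of_FF {n : ℕ} {S : Set (Fin n → ℕ)} (h : FF S) : FFG S := by
  obtain ⟨m, P, hrep, hff⟩ := h
  exact ⟨Fin m, inferInstance, P, hrep, hff⟩

theorem FF_of_SF {n : ℕ} {S : Set (Fin n → ℕ)} (h : SF S) : FF S := by
  obtain ⟨m, P, hrep, hsf⟩ := h
  refine ⟨m, P, hrep, fun a => ?_⟩
  apply Set.Subsingleton.finite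
  intro w hw w' hw'
  exact hsf a w w' hw hw'

end Vale.Agent.Lib.P345
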