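import Vale.Agent.Lib.P345.ExpDefs
import Vale.Agent.Lib.P345.Comp2S
import Vale.Agent.Lib.P345.Comp2F
import Vale.Agent.Lib.P345.Ops
import Vale.Agent.Lib.P345.Reindex
import Vale.Agent.Lib.P345.Inter
import Vale.Agent.Lib.P345.Proj

namespace Vale.Agent.Lib.P345

theorem FFG_of_SFG {n : ℕ} {S : Set (Fin n → ℕ)} (h : SFG S) : FFG S :=
  FFG_of_FF (FF_of_SF (SF_of_SFG h))

/-- the graph of an exponential term is single-fold Diophantine if the graph of `b ^ c` is -/
theorem SFG_graph (hexp : SFG ExpGraph) {k : ℕ} (E : ETerm k) :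
    SFG {v : Fin (k + 1) → ℕ | v (Fin.last k) = E.val (fun i => v i.castSucc)} := by
  induction E with
  | var i => exact SFG_varGraph i
  | const c => exact SFG_constGraph c
  | add s t hs ht => exact SFG_comp2 s.val t.val (fun x y => x + y) hs ht SFG_addGraph
  | mul s t hs ht => exact SFG_comp2 s.val t.val (fun x y => x * y) hs ht SFG_mulGraph
  | pow s t hs ht => exact SFG_comp2 s.val t.val (fun x y => x ^ y) hs ht hexp

/-- the graph of an exponential term is finite-fold Diophantine if the graph of `b ^ c` is -/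
theorem FFG_graph (hexp : FFG ExpGraph) {k : ℕ} (E : ETerm k) :
    FFG {v : Fin (k + 1) → ℕ | v (Fin.last k) = E.val (fun i => v i.castSucc)} := by
  induction E with
  | var i => exact FFG_of_SFG (SFG_varGraph i)
  | const c => exact FFG_of_SFG (SFG_constGraph c)
  | add s t hs ht =>
      exact FFG_comp2 s.val t.val (fun x y => x + y) hs ht (FFG_of_SFG SFG_addGraph)
  | mul s t hs ht =>
      exact FFG_comp2 s.val t.val (fun x y => x * y) hs ht (FFG_of_SFG SFG_mulGraph)
  | pow s t hs ht => exact FFG_comp2 s.val t.val (fun x y => x ^ y) hs ht hexp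

theorem snoc_mem_graph {k : ℕ} (E : ETerm k) (a : Fin k → ℕ) (y : ℕ) :
    (Fin.snoc a y : Fin (k + 1) → ℕ) ∈
      {v : Fin (k + 1) → ℕ | v (Fin.last k) = E.val (fun i => v i.castSucc)} ↔ y = E.val a := by
  simp only [Set.mem_setOf_eq, Fin.snoc_last, Fin.snoc_castSucc]

theorem SFG_eqSet (hexp : SFG ExpGraph) {k : ℕ} (E1 E2 : ETerm k) :
    SFG {v : Fin k → ℕ | E1.val v = E2.val v} := by
  have h := SFG_proj (SFG_inter (SFG_graph hexp E1) (SFG_graph hexp E2)) (by
    intro a y y' hy hy'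
    have h1 := (snoc_mem_graph E1 a y).1 hy.1
    have h2 := (snoc_mem_graph E1 a y').1 hy'.1
    rw [h1, h2])
  convert h using 1
  ext a
  constructor
  · intro ha
    exact ⟨E1.val a, (snoc_mem_graph E1 a _).2 rfl, (snoc_mem_graph E2 a _).2 ha⟩
  · rintro ⟨y, hy1, hy2⟩
    have h1 := (snoc_mem_graph E1 a y).1 hy1
    have h2 := (snoc_mem_graph E2 a y).1 hy2
    exact h1.symm.trans h2

theorem FFG_eqSet (hexp : FFG ExpGraph) {k : ℕ} (E1 E2 : ETerm k) :
    FFG {v : Fin k → ℕ | E1.val v = E2.val v} := by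
  have h := FFG_proj (FFG_inter (FFG_graph hexp E1) (FFG_graph hexp E2)) (by
    intro a
    apply Set.Subsingleton.finite
    intro y hy y' hy'
    have h1 := (snoc_mem_graph E1 a y).1 hy.1
    have h2 := (snoc_mem_graph E1 a y').1 hy'.1
    rw [h1, h2])
  convert h using 1
  ext a
  constructor
  · intro ha
    exact ⟨E1.val a, (snoc_mem_graph E1 a _).2 rfl, (snoc_mem_graph E2 a _).2 ha⟩
  · rintro ⟨y, hy1, hy2⟩
    have h1 := (snoc_mem_graph E1 a y).1 hy1
    have h2 := (snoc_mem_graph E2 a y).1 hy2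
    exact h1.symm.trans h2

end Vale.Agent.Lib.P345
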