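import Vale.Agent.Lib.P345.ExpDefs

namespace Vale.Agent.Lib.P345

open MvPolynomial

/-- the renaming of variables: the last `m` parameters become auxiliary variables -/
private def mpMapF (n m : ℕ) (β : Type) : Fin (n + m) ⊕ β → Fin n ⊕ (Fin m ⊕ β)
  | Sum.inl i => Fin.addCases (motive := fun _ => Fin n ⊕ (Fin m ⊕ β)) (fun j => Sum.inl j)
      (fun j => Sum.inr (Sum.inl j)) i
  | Sum.inr b => Sum.inr (Sum.inr b)

private theorem evG_mpMapF {n m : ℕ} {β : Type} (P : MvPolynomial (Fin (n + m) ⊕ β) ℤ)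
    (a : Fin n → ℕ) (w : Fin m ⊕ β → ℕ) :
    evG (rename (mpMapF n m β) P) a w
      = evG P (Fin.append a (fun j => w (Sum.inl j))) (fun b => w (Sum.inr b)) := by
  unfold evG
  rw [eval_rename]
  congr 2
  funext x
  rcases x with i | b
  · induction i using Fin.addCases with
    | left j => simp [mpMapF]
    | right j => simp [mpMapF]
  · simp [mpMapF]

/-- projection along a block of coordinates that takes finitely many values -/
theorem FFG_multiProj {n m : ℕ} {T : Set (Fin (n + m) → ℕ)} (hT : FFG T)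
    (hu : ∀ a : Fin n → ℕ, {w : Fin m → ℕ | Fin.append a w ∈ T}.Finite) :
    FFG {a : Fin n → ℕ | ∃ w : Fin m → ℕ, Fin.append a w ∈ T} := by
  obtain ⟨β, hβ, P, hrep, hff⟩ := hT
  refine ⟨Fin m ⊕ β, inferInstance, rename (mpMapF n m β) P, ?_, ?_⟩
  · intro a
    constructor
    · rintro ⟨y, hy⟩
      obtain ⟨w0, hw0⟩ := (hrep _).1 hy
      refine ⟨Sum.elim y w0, ?_⟩
      rw [evG_mpMapF]
      exact hw0
    · rintro ⟨w, hw⟩
      rw [evG_mpMapF] at hw
      exact ⟨fun j => w (Sum.inl j), (hrep _).2 ⟨_, hw⟩⟩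
  · intro a
    let F : (Fin m ⊕ β → ℕ) → (Fin m → ℕ) × (β → ℕ) :=
      fun w => (fun j => w (Sum.inl j), fun b => w (Sum.inr b))
    have hF : Function.Injective F := by
      intro w w' h
      have h1 : (fun j => w (Sum.inl j)) = (fun j => w' (Sum.inl j)) := congrArg Prod.fst h
      have h2 : (fun b => w (Sum.inr b)) = (fun b => w' (Sum.inr b)) := congrArg Prod.snd h
      funext o
      cases o with
      | inl j => exact congrFun h1 j
      | inr b => exact congrFun h2 b
    have hA : (⋃ y ∈ {y : Fin m → ℕ | Fin.append a y ∈ T},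
        (Prod.mk y) '' {w0 : β → ℕ | evG P (Fin.append a y) w0 = 0}).Finite :=
      Set.Finite.biUnion (hu a) (fun y _ => (hff _).image _)
    refine (hA.preimage (hF.injOn)).subset ?_
    intro w hw
    have hw' : evG (rename (mpMapF n m β) P) a w = 0 := hw
    rw [evG_mpMapF] at hw'
    simp only [Set.mem_preimage, Set.mem_iUnion]
    exact ⟨fun j => w (Sum.inl j), (hrep _).2 ⟨_, hw'⟩, ⟨fun b => w (Sum.inr b), hw', rfl⟩⟩

end Vale.Agent.Lib.P345
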