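import Vale.Agent.Lib.P345.ExpDefs

namespace Vale.Agent.Lib.P345

open MvPolynomial

/-- the renaming of variables: the last `m` parameters become auxiliary variables -/
private def mprojMapS (n m : ℕ) (β : Type) : Fin (n + m) ⊕ β → Fin n ⊕ (Fin m ⊕ β)
  | Sum.inl i => Fin.addCases (motive := fun _ => Fin n ⊕ (Fin m ⊕ β)) (fun j => Sum.inl j)
      (fun j => Sum.inr (Sum.inl j)) i
  | Sum.inr b => Sum.inr (Sum.inr b)

private theorem evG_mprojMapS {n m : ℕ} {β : Type} (P : MvPolynomial (Fin (n + m) ⊕ β) ℤ)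
    (a : Fin n → ℕ) (w : Fin m ⊕ β → ℕ) :
    evG (rename (mprojMapS n m β) P) a w
      = evG P (Fin.append a (fun j => w (Sum.inl j))) (fun b => w (Sum.inr b)) := by
  unfold evG
  rw [eval_rename]
  congr 2
  funext x
  rcases x with i | b
  · induction i using Fin.addCases with
    | left j => simp [mprojMapS]
    | right j => simp [mprojMapS]
  · simp [mprojMapS]

/-- projection along a block of coordinates that is determined by the others -/
theorem SFG_multiProj {n m : ℕ} {T : Set (Fin (n + m) → ℕ)} (hT : SFG T)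
    (hu : ∀ (a : Fin n → ℕ) (w w' : Fin m → ℕ), Fin.append a w ∈ T → Fin.append a w' ∈ T → w = w') :
    SFG {a : Fin n → ℕ | ∃ w : Fin m → ℕ, Fin.append a w ∈ T} := by
  obtain ⟨β, hβ, P, hrep, hsf⟩ := hT
  refine ⟨Fin m ⊕ β, inferInstance, rename (mprojMapS n m β) P, ?_, ?_⟩
  · intro a
    constructor
    · rintro ⟨y, hy⟩
      obtain ⟨w0, hw0⟩ := (hrep _).1 hy
      refine ⟨Sum.elim y w0, ?_⟩
      rw [evG_mprojMapS]
      exact hw0
    · rintro ⟨w, hw⟩
      rw [evG_mprojMapS] at hw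
      exact ⟨fun j => w (Sum.inl j), (hrep _).2 ⟨_, hw⟩⟩
  · intro a w w' hw hw'
    rw [evG_mprojMapS] at hw hw'
    have hy : (fun j => w (Sum.inl j)) = (fun j => w' (Sum.inl j)) :=
      hu a _ _ ((hrep _).2 ⟨_, hw⟩) ((hrep _).2 ⟨_, hw'⟩)
    rw [← hy] at hw'
    have hr := hsf _ _ _ hw hw'
    funext o
    cases o with
    | inl j => exact congrFun hy j
    | inr b => exact congrFun hr b

end Vale.Agent.Lib.P345
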