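import Vale.Agent.Lib.P345.Sys2Thm
import Vale.Agent.Lib.P345.Comap
import Vale.Agent.Lib.P345.MultiProjS
import Vale.Agent.Lib.P345.MultiProjF
import Vale.Agent.Lib.P345.Inter
import Vale.Agent.Lib.P345.Atoms
import Vale.Agent.Lib.P345.Graph

namespace Vale.Agent.Lib.P345

open MvPolynomial

abbrev lM : Fin (2 + 9) := Fin.castAdd 9 0
abbrev lC : Fin (2 + 9) := Fin.castAdd 9 1
abbrev l0 : Fin (2 + 9) := Fin.natAdd 2 0
abbrev l1 : Fin (2 + 9) := Fin.natAdd 2 1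
abbrev l2 : Fin (2 + 9) := Fin.natAdd 2 2
abbrev l3 : Fin (2 + 9) := Fin.natAdd 2 3
abbrev l4 : Fin (2 + 9) := Fin.natAdd 2 4
abbrev l5 : Fin (2 + 9) := Fin.natAdd 2 5
abbrev l6 : Fin (2 + 9) := Fin.natAdd 2 6
abbrev l7 : Fin (2 + 9) := Fin.natAdd 2 7
abbrev l8 : Fin (2 + 9) := Fin.natAdd 2 8

def T3 (g : ℕ → ℕ) : Set (Fin (2 + 9) → ℕ) :=
  {u | Sys2 g (u lM) (u lC) (u l0) (u l1) (u l2) (u l3) (u l4) (u l5) (u l6) (u l7) (u l8)}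

noncomputable def qa3 : Fin 2 → MvPolynomial (Fin (2 + 9)) ℤ := ![X l0, 16 * ((X lC + 2) * (X lC + 2))]
noncomputable def qb3 : Fin 2 → MvPolynomial (Fin (2 + 9)) ℤ := ![X l4, X l1]
def fa3 (u : Fin (2 + 9) → ℕ) : Fin 2 → ℕ := ![u l0, 16 * ((u lC + 2) * (u lC + 2))]
def fb3 (u : Fin (2 + 9) → ℕ) : Fin 2 → ℕ := ![u l4, u l1]

noncomputable def s3 : MvPolynomial (Fin (2 + 9)) ℤ :=
  X l1 * X l1 + X l2 * X l2 - ((16 * ((X lC + 2) * (X lC + 2))) * (16 * ((X lC + 2) * (X lC + 2))) * (X l2 * X l2) + 1)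
noncomputable def s4 : MvPolynomial (Fin (2 + 9)) ℤ :=
  X l2 + X l3 - ((X lC + 1) + (16 * ((X lC + 2) * (X lC + 2))) * X l3)
noncomputable def s5 : MvPolynomial (Fin (2 + 9)) ℤ := X l0 - X l2 - 1
noncomputable def s6 : MvPolynomial (Fin (2 + 9)) ℤ :=
  X l5 * X l5 + X l6 * X l6 - (X l1 * X l1 * (X l6 * X l6) + 1)
noncomputable def s7 : MvPolynomial (Fin (2 + 9)) ℤ := X l6 + X l7 - (X lC + X l1 * X l7)
noncomputable def s8 : MvPolynomial (Fin (2 + 9)) ℤ := X l4 - X l6 - 1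
noncomputable def s9 : MvPolynomial (Fin (2 + 9)) ℤ :=
  X l5 + 4 * X l1 + 2 * X l6 + 5 * X l8 - (X l6 * X l1 + X lM + 4 * X l1 * X l8 + 5)
noncomputable def s10 : MvPolynomial (Fin (2 + 9)) ℤ := 4 * X l1 - X lM - 5 - 1

theorem hqa3 (u : Fin (2 + 9) → ℕ) (i : Fin 2) : pv (qa3 i) u = (fa3 u i : ℤ) := by
  fin_cases i <;> simp [pv, qa3, fa3]

theorem hqb3 (u : Fin (2 + 9) → ℕ) (i : Fin 2) : pv (qb3 i) u = (fb3 u i : ℤ) := by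
  fin_cases i <;> simp [pv, qb3, fb3]

theorem eq_iff_of_pv3 {z : ℤ} {L R : ℕ} (h : z = (L : ℤ) - (R : ℤ)) : z = 0 ↔ L = R := by
  rw [h, sub_eq_zero]
  exact_mod_cast Iff.rfl

theorem lt_iff_of_pv3 {z : ℤ} {L R : ℕ} (h : z = (R : ℤ) - (L : ℤ) - 1) : 0 ≤ z ↔ L < R := by
  rw [h]
  omega

theorem T3_eq (g : ℕ → ℕ) : T3 g = {u | fa3 u ∈ GraphFn g} ∩ ({u | fb3 u ∈ GraphFn g} ∩
    ({u | pv s3 u = 0} ∩ ({u | pv s4 u = 0} ∩ ({u | 0 ≤ pv s5 u} ∩ ({u | pv s6 u = 0} ∩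
    ({u | pv s7 u = 0} ∩ ({u | 0 ≤ pv s8 u} ∩ ({u | pv s9 u = 0} ∩ {u | 0 ≤ pv s10 u})))))))) := by
  ext u
  have e1 : fa3 u ∈ GraphFn g ↔ u l0 = g (16 * ((u lC + 2) * (u lC + 2))) := Iff.rfl
  have e2 : fb3 u ∈ GraphFn g ↔ u l4 = g (u l1) := Iff.rfl
  have e3 : pv s3 u = 0 ↔ u l1 * u l1 + u l2 * u l2
      = (16 * ((u lC + 2) * (u lC + 2))) * (16 * ((u lC + 2) * (u lC + 2))) * (u l2 * u l2) + 1 :=
    eq_iff_of_pv3 (by simp [pv, s3])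
  have e4 : pv s4 u = 0 ↔ u l2 + u l3 = (u lC + 1) + (16 * ((u lC + 2) * (u lC + 2))) * u l3 :=
    eq_iff_of_pv3 (by simp [pv, s4])
  have e5 : 0 ≤ pv s5 u ↔ u l2 < u l0 := lt_iff_of_pv3 (by simp [pv, s5])
  have e6 : pv s6 u = 0 ↔ u l5 * u l5 + u l6 * u l6 = u l1 * u l1 * (u l6 * u l6) + 1 :=
    eq_iff_of_pv3 (by simp [pv, s6])
  have e7 : pv s7 u = 0 ↔ u l6 + u l7 = u lC + u l1 * u l7 := eq_iff_of_pv3 (by simp [pv, s7])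
  have e8 : 0 ≤ pv s8 u ↔ u l6 < u l4 := lt_iff_of_pv3 (by simp [pv, s8])
  have e9 : pv s9 u = 0 ↔ u l5 + 4 * u l1 + 2 * u l6 + 5 * u l8
      = u l6 * u l1 + u lM + 4 * u l1 * u l8 + 5 := eq_iff_of_pv3 (by simp [pv, s9])
  have e10 : 0 ≤ pv s10 u ↔ u lM + 5 < 4 * u l1 :=
    lt_iff_of_pv3 (by simp [pv, s10]; ring)
  exact (and_congr e1 (and_congr e2 (and_congr e3 (and_congr e4 (and_congr e5 (and_congr e6
    (and_congr e7 (and_congr e8 (and_congr e9 e10))))))))).symm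

theorem SFG_T3 {g : ℕ → ℕ} (h : SFG (GraphFn g)) : SFG (T3 g) := by
  rw [T3_eq]
  exact SFG_inter (SFG_comap h qa3 fa3 hqa3) (SFG_inter (SFG_comap h qb3 fb3 hqb3)
    (SFG_inter (SFG_eq0 s3) (SFG_inter (SFG_eq0 s4) (SFG_inter (SFG_nonneg s5)
    (SFG_inter (SFG_eq0 s6) (SFG_inter (SFG_eq0 s7) (SFG_inter (SFG_nonneg s8)
    (SFG_inter (SFG_eq0 s9) (SFG_nonneg s10)))))))))

theorem FFG_T3 {g : ℕ → ℕ} (h : FFG (GraphFn g)) : FFG (T3 g) := by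
  rw [T3_eq]
  exact FFG_inter (FFG_comap h qa3 fa3 hqa3) (FFG_inter (FFG_comap h qb3 fb3 hqb3)
    (FFG_of_SFG (SFG_inter (SFG_eq0 s3) (SFG_inter (SFG_eq0 s4) (SFG_inter (SFG_nonneg s5)
    (SFG_inter (SFG_eq0 s6) (SFG_inter (SFG_eq0 s7) (SFG_inter (SFG_nonneg s8)
    (SFG_inter (SFG_eq0 s9) (SFG_nonneg s10))))))))))

theorem append_mem_T3 (g : ℕ → ℕ) (v : Fin 2 → ℕ) (w : Fin 9 → ℕ) : Fin.append v w ∈ T3 g ↔
    Sys2 g (v 0) (v 1) (w 0) (w 1) (w 2) (w 3) (w 4) (w 5) (w 6) (w 7) (w 8) := by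
  unfold T3
  simp only [Set.mem_setOf_eq, lM, lC, l0, l1, l2, l3, l4, l5, l6, l7, l8, Fin.append_left,
    Fin.append_right]

theorem Pow2Graph_eq_proj3 {g : ℕ → ℕ} (hg : ExpWindow g) :
    Pow2Graph = {v : Fin 2 → ℕ | ∃ w : Fin 9 → ℕ, Fin.append v w ∈ T3 g} := by
  ext v
  constructor
  · intro h
    have h' : v 0 = 2 ^ v 1 := h
    obtain ⟨B1, a, y1, q1, B2, x2, y2, q2, q3, hs⟩ := Sys2_exists hg (v 1)
    refine ⟨![B1, a, y1, q1, B2, x2, y2, q2, q3], ?_⟩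
    rw [append_mem_T3, h']
    exact hs
  · rintro ⟨w, hw⟩
    rw [append_mem_T3] at hw
    exact (Sys2_det hg hw).2.2.2.2

theorem T3_unique {g : ℕ → ℕ} (hg : ExpWindow g) (v : Fin 2 → ℕ) (w w' : Fin 9 → ℕ)
    (hw : Fin.append v w ∈ T3 g) (hw' : Fin.append v w' ∈ T3 g) : w = w' := by
  rw [append_mem_T3] at hw hw'
  obtain ⟨h0, h1, h2, h3, h4, h5, h6, h7, h8⟩ := Sys2_unique hg hw hw'
  funext i
  fin_cases i
  · exact h0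
  · exact h1
  · exact h2
  · exact h3
  · exact h4
  · exact h5
  · exact h6
  · exact h7
  · exact h8

theorem SFG_Pow2_of_expWindow {g : ℕ → ℕ} (hg : ExpWindow g) (h : SFG (GraphFn g)) :
    SFG Pow2Graph := by
  rw [Pow2Graph_eq_proj3 hg]
  exact SFG_multiProj (SFG_T3 h) (T3_unique hg)

theorem FFG_Pow2_of_expWindow {g : ℕ → ℕ} (hg : ExpWindow g) (h : FFG (GraphFn g)) :
    FFG Pow2Graph := by
  rw [Pow2Graph_eq_proj3 hg]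
  refine FFG_multiProj (FFG_T3 h) (fun v => ?_)
  apply Set.Subsingleton.finite
  intro w hw w' hw'
  exact T3_unique hg v w w' hw hw'

end Vale.Agent.Lib.P345
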