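import Vale.Agent.Lib.P345.Pow2Defs

namespace Vale.Agent.Lib.P345

/-- roughly exponential growth: `2 ^ a ≤ g a ≤ a ^ (a - 2)` for all `a ≥ 8` -/
def ExpWindow (g : ℕ → ℕ) : Prop :=
  ∀ a : ℕ, 8 ≤ a → 2 ^ a ≤ g a ∧ g a ≤ a ^ (a - 2)

/-- the graph of `g`: pairs `(b, a)` with `b = g a` -/
def GraphFn (g : ℕ → ℕ) : Set (Fin 2 → ℕ) := {v | v 0 = g (v 1)}

/-- the system that pins down `m = 2 ^ c` -/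
def Sys2 (g : ℕ → ℕ) (m c B1 a y1 q1 B2 x2 y2 q2 q3 : ℕ) : Prop :=
  B1 = g (16 * ((c + 2) * (c + 2))) ∧ B2 = g a ∧
  a * a + y1 * y1 = (16 * ((c + 2) * (c + 2))) * (16 * ((c + 2) * (c + 2))) * (y1 * y1) + 1 ∧
  y1 + q1 = (c + 1) + (16 * ((c + 2) * (c + 2))) * q1 ∧ y1 < B1 ∧
  x2 * x2 + y2 * y2 = a * a * (y2 * y2) + 1 ∧
  y2 + q2 = c + a * q2 ∧ y2 < B2 ∧
  x2 + 4 * a + 2 * y2 + 5 * q3 = y2 * a + m + 4 * a * q3 + 5 ∧ m + 5 < 4 * a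

end Vale.Agent.Lib.P345
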