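import Vale.Agent.Lib.P345.SysThm
import Vale.Agent.Lib.P345.Comap
import Vale.Agent.Lib.P345.MultiProjS
import Vale.Agent.Lib.P345.MultiProjF
import Vale.Agent.Lib.P345.Inter
import Vale.Agent.Lib.P345.Atoms
import Vale.Agent.Lib.P345.Graph

namespace Vale.Agent.Lib.P345

open MvPolynomial

abbrev jM : Fin (2 + 9) := Fin.castAdd 9 0
abbrev jC : Fin (2 + 9) := Fin.castAdd 9 1
abbrev k0 : Fin (2 + 9) := Fin.natAdd 2 0
abbrev k1 : Fin (2 + 9) := Fin.natAdd 2 1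
abbrev k2 : Fin (2 + 9) := Fin.natAdd 2 2
abbrev k3 : Fin (2 + 9) := Fin.natAdd 2 3
abbrev k4 : Fin (2 + 9) := Fin.natAdd 2 4
abbrev k5 : Fin (2 + 9) := Fin.natAdd 2 5
abbrev k6 : Fin (2 + 9) := Fin.natAdd 2 6
abbrev k7 : Fin (2 + 9) := Fin.natAdd 2 7
abbrev k8 : Fin (2 + 9) := Fin.natAdd 2 8

def T2 (g : ℕ → ℕ) : Set (Fin (2 + 9) → ℕ) :=
  {u | Sys g (u jM) (u jC) (u k0) (u k1) (u k2) (u k3) (u k4) (u k5) (u k6) (u k7) (u k8)}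

noncomputable def qa : Fin 2 → MvPolynomial (Fin (2 + 9)) ℤ := ![X k0, 4 * X jC + 14]
noncomputable def qb : Fin 2 → MvPolynomial (Fin (2 + 9)) ℤ := ![X k4, X k1]
def fa (u : Fin (2 + 9) → ℕ) : Fin 2 → ℕ := ![u k0, 4 * u jC + 14]
def fb (u : Fin (2 + 9) → ℕ) : Fin 2 → ℕ := ![u k4, u k1]

noncomputable def r3 : MvPolynomial (Fin (2 + 9)) ℤ :=
  X k1 * X k1 + X k2 * X k2 - ((4 * X jC + 14) * (4 * X jC + 14) * (X k2 * X k2) + 1)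
noncomputable def r4 : MvPolynomial (Fin (2 + 9)) ℤ :=
  X k2 + X k3 - ((X jC + 1) + (4 * X jC + 14) * X k3)
noncomputable def r5 : MvPolynomial (Fin (2 + 9)) ℤ := X k0 - X k2 - 1
noncomputable def r6 : MvPolynomial (Fin (2 + 9)) ℤ :=
  X k5 * X k5 + X k6 * X k6 - (X k1 * X k1 * (X k6 * X k6) + 1)
noncomputable def r7 : MvPolynomial (Fin (2 + 9)) ℤ := X k6 + X k7 - (X jC + X k1 * X k7)
noncomputable def r8 : MvPolynomial (Fin (2 + 9)) ℤ := X k4 - X k6 - 1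
noncomputable def r9 : MvPolynomial (Fin (2 + 9)) ℤ :=
  X k5 + 4 * X k1 + 2 * X k6 + 5 * X k8 - (X k6 * X k1 + X jM + 4 * X k1 * X k8 + 5)
noncomputable def r10 : MvPolynomial (Fin (2 + 9)) ℤ := 4 * X k1 - X jM - 5 - 1

theorem hqa (u : Fin (2 + 9) → ℕ) (i : Fin 2) : pv (qa i) u = (fa u i : ℤ) := by
  fin_cases i <;> simp [pv, qa, fa]

theorem hqb (u : Fin (2 + 9) → ℕ) (i : Fin 2) : pv (qb i) u = (fb u i : ℤ) := by
  fin_cases i <;> simp [pv, qb, fb]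

theorem eq_iff_of_pv {z : ℤ} {L R : ℕ} (h : z = (L : ℤ) - (R : ℤ)) : z = 0 ↔ L = R := by
  rw [h, sub_eq_zero]
  exact_mod_cast Iff.rfl

theorem lt_iff_of_pv {z : ℤ} {L R : ℕ} (h : z = (R : ℤ) - (L : ℤ) - 1) : 0 ≤ z ↔ L < R := by
  rw [h]
  omega

theorem T2_eq (g : ℕ → ℕ) : T2 g = {u | fa u ∈ GraphOf g} ∩ ({u | fb u ∈ GraphOf g} ∩
    ({u | pv r3 u = 0} ∩ ({u | pv r4 u = 0} ∩ ({u | 0 ≤ pv r5 u} ∩ ({u | pv r6 u = 0} ∩
    ({u | pv r7 u = 0} ∩ ({u | 0 ≤ pv r8 u} ∩ ({u | pv r9 u = 0} ∩ {u | 0 ≤ pv r10 u})))))))) := by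
  ext u
  have e1 : fa u ∈ GraphOf g ↔ u k0 = g (4 * u jC + 14) := Iff.rfl
  have e2 : fb u ∈ GraphOf g ↔ u k4 = g (u k1) := Iff.rfl
  have e3 : pv r3 u = 0 ↔ u k1 * u k1 + u k2 * u k2
      = (4 * u jC + 14) * (4 * u jC + 14) * (u k2 * u k2) + 1 :=
    eq_iff_of_pv (by simp [pv, r3])
  have e4 : pv r4 u = 0 ↔ u k2 + u k3 = (u jC + 1) + (4 * u jC + 14) * u k3 :=
    eq_iff_of_pv (by simp [pv, r4])
  have e5 : 0 ≤ pv r5 u ↔ u k2 < u k0 := lt_iff_of_pv (by simp [pv, r5])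
  have e6 : pv r6 u = 0 ↔ u k5 * u k5 + u k6 * u k6 = u k1 * u k1 * (u k6 * u k6) + 1 :=
    eq_iff_of_pv (by simp [pv, r6])
  have e7 : pv r7 u = 0 ↔ u k6 + u k7 = u jC + u k1 * u k7 := eq_iff_of_pv (by simp [pv, r7])
  have e8 : 0 ≤ pv r8 u ↔ u k6 < u k4 := lt_iff_of_pv (by simp [pv, r8])
  have e9 : pv r9 u = 0 ↔ u k5 + 4 * u k1 + 2 * u k6 + 5 * u k8
      = u k6 * u k1 + u jM + 4 * u k1 * u k8 + 5 := eq_iff_of_pv (by simp [pv, r9])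
  have e10 : 0 ≤ pv r10 u ↔ u jM + 5 < 4 * u k1 :=
    lt_iff_of_pv (by simp [pv, r10]; ring)
  exact (and_congr e1 (and_congr e2 (and_congr e3 (and_congr e4 (and_congr e5 (and_congr e6
    (and_congr e7 (and_congr e8 (and_congr e9 e10))))))))).symm

theorem SFG_T2 {g : ℕ → ℕ} (h : SFG (GraphOf g)) : SFG (T2 g) := by
  rw [T2_eq]
  exact SFG_inter (SFG_comap h qa fa hqa) (SFG_inter (SFG_comap h qb fb hqb)
    (SFG_inter (SFG_eq0 r3) (SFG_inter (SFG_eq0 r4) (SFG_inter (SFG_nonneg r5)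
    (SFG_inter (SFG_eq0 r6) (SFG_inter (SFG_eq0 r7) (SFG_inter (SFG_nonneg r8)
    (SFG_inter (SFG_eq0 r9) (SFG_nonneg r10)))))))))

theorem FFG_T2 {g : ℕ → ℕ} (h : FFG (GraphOf g)) : FFG (T2 g) := by
  rw [T2_eq]
  exact FFG_inter (FFG_comap h qa fa hqa) (FFG_inter (FFG_comap h qb fb hqb)
    (FFG_of_SFG (SFG_inter (SFG_eq0 r3) (SFG_inter (SFG_eq0 r4) (SFG_inter (SFG_nonneg r5)
    (SFG_inter (SFG_eq0 r6) (SFG_inter (SFG_eq0 r7) (SFG_inter (SFG_nonneg r8)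
    (SFG_inter (SFG_eq0 r9) (SFG_nonneg r10))))))))))

theorem append_mem_T2 (g : ℕ → ℕ) (v : Fin 2 → ℕ) (w : Fin 9 → ℕ) : Fin.append v w ∈ T2 g ↔
    Sys g (v 0) (v 1) (w 0) (w 1) (w 2) (w 3) (w 4) (w 5) (w 6) (w 7) (w 8) := by
  unfold T2
  simp only [Set.mem_setOf_eq, jM, jC, k0, k1, k2, k3, k4, k5, k6, k7, k8, Fin.append_left,
    Fin.append_right]

theorem Pow2Graph_eq_proj {g : ℕ → ℕ} (hg : Window g) :
    Pow2Graph = {v : Fin 2 → ℕ | ∃ w : Fin 9 → ℕ, Fin.append v w ∈ T2 g} := by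
  ext v
  constructor
  · intro h
    have h' : v 0 = 2 ^ v 1 := h
    obtain ⟨B1, a, y1, q1, B2, x2, y2, q2, q3, hs⟩ := Sys_exists hg (v 1)
    refine ⟨![B1, a, y1, q1, B2, x2, y2, q2, q3], ?_⟩
    rw [append_mem_T2, h']
    exact hs
  · rintro ⟨w, hw⟩
    rw [append_mem_T2] at hw
    exact (Sys_det hg hw).2.2.2.2

theorem T2_unique {g : ℕ → ℕ} (hg : Window g) (v : Fin 2 → ℕ) (w w' : Fin 9 → ℕ)
    (hw : Fin.append v w ∈ T2 g) (hw' : Fin.append v w' ∈ T2 g) : w = w' := by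
  rw [append_mem_T2] at hw hw'
  obtain ⟨h0, h1, h2, h3, h4, h5, h6, h7, h8⟩ := Sys_unique hg hw hw'
  funext i
  fin_cases i
  · exact h0
  · exact h1
  · exact h2
  · exact h3
  · exact h4
  · exact h5
  · exact h6
  · exact h7
  · exact h8

theorem SFG_Pow2_of_window {g : ℕ → ℕ} (hg : Window g) (h : SFG (GraphOf g)) :
    SFG Pow2Graph := by
  rw [Pow2Graph_eq_proj hg]
  exact SFG_multiProj (SFG_T2 h) (T2_unique hg)

theorem FFG_Pow2_of_window {g : ℕ → ℕ} (hg : Window g) (h : FFG (GraphOf g)) :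
    FFG Pow2Graph := by
  rw [Pow2Graph_eq_proj hg]
  refine FFG_multiProj (FFG_T2 h) (fun v => ?_)
  apply Set.Subsingleton.finite
  intro w hw w' hw'
  exact T2_unique hg v w w' hw hw'

end Vale.Agent.Lib.P345
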