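import Vale.Agent.Lib.P345.Defs

namespace Vale.Agent.Lib.P345

open MvPolynomial

/-- the representing polynomial -/
private noncomputable def ndPoly {n : ℕ} (p q : MvPolynomial (Fin n) ℤ) :
    MvPolynomial (Fin n ⊕ Fin 5) ℤ :=
  (rename Sum.inl p - 1 - X (Sum.inr 0)) ^ 2
    + (rename Sum.inl q - rename Sum.inl p * (X (Sum.inr 1) - X (Sum.inr 2))
        - (X (Sum.inr 3) + 1)) ^ 2
    + (X (Sum.inr 1) * X (Sum.inr 2)) ^ 2
    + (rename Sum.inl p - (X (Sum.inr 3) + 1) - (X (Sum.inr 4) + 1)) ^ 2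

private lemma evG_ndPoly {n : ℕ} (p q : MvPolynomial (Fin n) ℤ) (a : Fin n → ℕ)
    (w : Fin 5 → ℕ) :
    evG (ndPoly p q) a w =
      (pv p a - 1 - (w 0 : ℤ)) ^ 2
        + (pv q a - pv p a * ((w 1 : ℤ) - (w 2 : ℤ)) - ((w 3 : ℤ) + 1)) ^ 2
        + ((w 1 : ℤ) * (w 2 : ℤ)) ^ 2
        + (pv p a - ((w 3 : ℤ) + 1) - ((w 4 : ℤ) + 1)) ^ 2 := by
  simp only [evG, ndPoly, pv, map_add, map_sub, map_mul, map_pow, map_one, eval_X, eval_rename,
    Sum.elim_inr]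
  rfl

private lemma sq4_zero {x y z t : ℤ} (h : x ^ 2 + y ^ 2 + z ^ 2 + t ^ 2 = 0) :
    x = 0 ∧ y = 0 ∧ z = 0 ∧ t = 0 := by
  have hx := sq_nonneg x
  have hy := sq_nonneg y
  have hz := sq_nonneg z
  have ht := sq_nonneg t
  refine ⟨?_, ?_, ?_, ?_⟩ <;> exact pow_eq_zero_iff (two_ne_zero) |>.1 (by linarith)

private lemma sol_iff {n : ℕ} (p q : MvPolynomial (Fin n) ℤ) (a : Fin n → ℕ) (w : Fin 5 → ℕ) :
    evG (ndPoly p q) a w = 0 ↔
      pv p a = (w 0 : ℤ) + 1 ∧ pv q a = pv p a * ((w 1 : ℤ) - (w 2 : ℤ)) + ((w 3 : ℤ) + 1) ∧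
        (w 1 : ℤ) * (w 2 : ℤ) = 0 ∧ pv p a = ((w 3 : ℤ) + 1) + ((w 4 : ℤ) + 1) := by
  rw [evG_ndPoly]
  constructor
  · intro h
    obtain ⟨h1, h2, h3, h4⟩ := sq4_zero h
    exact ⟨by linarith, by linarith, h3, by linarith⟩
  · rintro ⟨h1, h2, h3, h4⟩
    have e1 : pv p a - 1 - (w 0 : ℤ) = 0 := by linarith
    have e2 : pv q a - pv p a * ((w 1 : ℤ) - (w 2 : ℤ)) - ((w 3 : ℤ) + 1) = 0 := by linarith
    have e4 : pv p a - ((w 3 : ℤ) + 1) - ((w 4 : ℤ) + 1) = 0 := by linarith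
    rw [e1, e2, h3, e4]
    norm_num

theorem SFG_pos_not_dvd {n : ℕ} (p q : MvPolynomial (Fin n) ℤ) :
    SFG {a | 0 < pv p a ∧ ¬ pv p a ∣ pv q a} := by
  refine ⟨Fin 5, inferInstance, ndPoly p q, ?_, ?_⟩
  · intro a
    simp only [Set.mem_ofPred_eq]
    constructor
    · rintro ⟨hp, hnd⟩
      obtain ⟨P, hP⟩ : ∃ P, P = pv p a := ⟨_, rfl⟩
      obtain ⟨Q, hQ⟩ : ∃ Q, Q = pv q a := ⟨_, rfl⟩
      rw [← hP] at hp hnd
      rw [← hQ] at hnd
      have hr0 : 0 ≤ Q % P := Int.emod_nonneg _ hp.ne'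
      have hr1 : Q % P < P := Int.emod_lt_of_pos _ hp
      have hr2 : Q % P ≠ 0 := fun h => hnd (Int.dvd_of_emod_eq_zero h)
      have hdiv : P * (Q / P) + Q % P = Q := Int.mul_ediv_add_emod Q P
      refine ⟨![(P - 1).toNat, (Q / P).toNat, (-(Q / P)).toNat, (Q % P - 1).toNat,
        (P - Q % P - 1).toNat], ?_⟩
      rw [sol_iff, ← hP, ← hQ]
      simp only [Matrix.cons_val_zero, Matrix.cons_val_one, Matrix.cons_val]
      have e0 : (((P - 1).toNat : ℕ) : ℤ) = P - 1 := Int.toNat_of_nonneg (by omega)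
      have e3 : (((Q % P - 1).toNat : ℕ) : ℤ) = Q % P - 1 := Int.toNat_of_nonneg (by omega)
      have e4 : (((P - Q % P - 1).toNat : ℕ) : ℤ) = P - Q % P - 1 :=
        Int.toNat_of_nonneg (by omega)
      rw [e0, e3, e4]
      rcases le_total 0 (Q / P) with hk | hk
      · have e1 : (((Q / P).toNat : ℕ) : ℤ) = Q / P := Int.toNat_of_nonneg hk
        have e2 : (((-(Q / P)).toNat : ℕ) : ℤ) = 0 := by
          rw [Int.toNat_of_nonpos (by omega)]; rfl
        rw [e1, e2]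
        refine ⟨by ring, by linarith, by ring, by ring⟩
      · have e1 : (((Q / P).toNat : ℕ) : ℤ) = 0 := by
          rw [Int.toNat_of_nonpos hk]; rfl
        have e2 : (((-(Q / P)).toNat : ℕ) : ℤ) = -(Q / P) := Int.toNat_of_nonneg (by omega)
        rw [e1, e2]
        refine ⟨by ring, by linarith, by ring, by ring⟩
    · rintro ⟨w, hw⟩
      rw [sol_iff] at hw
      obtain ⟨h1, h2, -, h4⟩ := hw
      have hp : 0 < pv p a := by omega
      refine ⟨hp, fun hd => ?_⟩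
      have h5 := (Int.ediv_emod_unique (a := pv q a) (q := (w 1 : ℤ) - (w 2 : ℤ))
        (r := (w 3 : ℤ) + 1) hp).2 ⟨by linarith, by omega, by omega⟩
      have h6 := Int.emod_eq_zero_of_dvd hd
      omega
  · intro a w w' hw hw'
    rw [sol_iff] at hw hw'
    obtain ⟨h1, h2, h3, h4⟩ := hw
    obtain ⟨h1', h2', h3', h4'⟩ := hw'
    have hp : 0 < pv p a := by omega
    have h5 := (Int.ediv_emod_unique (a := pv q a) (q := (w 1 : ℤ) - (w 2 : ℤ))
      (r := (w 3 : ℤ) + 1) hp).2 ⟨by linarith, by omega, by omega⟩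
    have h5' := (Int.ediv_emod_unique (a := pv q a) (q := (w' 1 : ℤ) - (w' 2 : ℤ))
      (r := (w' 3 : ℤ) + 1) hp).2 ⟨by linarith, by omega, by omega⟩
    have hz : w 1 = 0 ∨ w 2 = 0 := by
      rcases mul_eq_zero.1 h3 with h | h
      · left; exact_mod_cast h
      · right; exact_mod_cast h
    have hz' : w' 1 = 0 ∨ w' 2 = 0 := by
      rcases mul_eq_zero.1 h3' with h | h
      · left; exact_mod_cast h
      · right; exact_mod_cast h
    obtain ⟨h6, h7⟩ := h5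
    obtain ⟨h6', h7'⟩ := h5'
    funext i
    fin_cases i
    · show w 0 = w' 0
      omega
    · show w 1 = w' 1
      omega
    · show w 2 = w' 2
      omega
    · show w 3 = w' 3
      omega
    · show w 4 = w' 4
      omega

end Vale.Agent.Lib.P345
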