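import Vale.Agent.Lib.P345.Defs

namespace Vale.Agent.Lib.P345

open MvPolynomial

/-- the polynomial that represents the union -/
noncomputable def unionPoly {n : ℕ} {β1 β2 : Type} [Fintype β1] [Fintype β2]
    (P1 : MvPolynomial (Fin n ⊕ β1) ℤ) (P2 : MvPolynomial (Fin n ⊕ β2) ℤ) :
    MvPolynomial (Fin n ⊕ (Unit ⊕ (β1 ⊕ β2))) ℤ :=
  (X (Sum.inr (Sum.inl ())) ^ 2
      + (rename (Sum.map id (fun j => Sum.inr (Sum.inl j))) P1) ^ 2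
      + ∑ j : β2, X (Sum.inr (Sum.inr (Sum.inr j))) ^ 2) *
  ((X (Sum.inr (Sum.inl ())) - 1) ^ 2
      + (rename (Sum.map id (fun j => Sum.inr (Sum.inr j))) P2) ^ 2
      + ∑ j : β1, X (Sum.inr (Sum.inr (Sum.inl j))) ^ 2)

theorem evG_unionPoly {n : ℕ} {β1 β2 : Type} [Fintype β1] [Fintype β2]
    (P1 : MvPolynomial (Fin n ⊕ β1) ℤ) (P2 : MvPolynomial (Fin n ⊕ β2) ℤ)
    (a : Fin n → ℕ) (w : Unit ⊕ (β1 ⊕ β2) → ℕ) :
    evG (unionPoly P1 P2) a w =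
      (((w (Sum.inl ()) : ℕ) : ℤ) ^ 2 + (evG P1 a (fun j => w (Sum.inr (Sum.inl j)))) ^ 2
        + ∑ j : β2, ((w (Sum.inr (Sum.inr j)) : ℕ) : ℤ) ^ 2) *
      ((((w (Sum.inl ()) : ℕ) : ℤ) - 1) ^ 2 + (evG P2 a (fun j => w (Sum.inr (Sum.inr j)))) ^ 2
        + ∑ j : β1, ((w (Sum.inr (Sum.inl j)) : ℕ) : ℤ) ^ 2) := by
  have h1 : (Sum.elim (fun i => (a i : ℤ)) (fun j => (w j : ℤ))) ∘
      (Sum.map id (fun j => Sum.inr (Sum.inl j)) : Fin n ⊕ β1 → Fin n ⊕ (Unit ⊕ (β1 ⊕ β2)))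
      = Sum.elim (fun i => (a i : ℤ)) (fun j => (w (Sum.inr (Sum.inl j)) : ℤ)) := by
    funext x
    cases x <;> rfl
  have h2 : (Sum.elim (fun i => (a i : ℤ)) (fun j => (w j : ℤ))) ∘
      (Sum.map id (fun j => Sum.inr (Sum.inr j)) : Fin n ⊕ β2 → Fin n ⊕ (Unit ⊕ (β1 ⊕ β2)))
      = Sum.elim (fun i => (a i : ℤ)) (fun j => (w (Sum.inr (Sum.inr j)) : ℤ)) := by
    funext x
    cases x <;> rfl
  unfold evG unionPoly
  simp only [map_mul, map_add, map_sub, map_pow, map_sum, map_one, eval_X, eval_rename, h1, h2,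
    Sum.elim_inr]

/-- a sum `x ^ 2 + y ^ 2 + ∑ z j ^ 2` of integer squares vanishes iff every term does -/
theorem sq_sum_eq_zero_iff {β : Type} [Fintype β] (x y : ℤ) (z : β → ℤ) :
    x ^ 2 + y ^ 2 + ∑ j : β, z j ^ 2 = 0 ↔ x = 0 ∧ y = 0 ∧ ∀ j, z j = 0 := by
  constructor
  · intro h
    have hs : 0 ≤ ∑ j : β, z j ^ 2 := Finset.sum_nonneg fun j _ => sq_nonneg (z j)
    have hx : x ^ 2 = 0 := by nlinarith [sq_nonneg x, sq_nonneg y]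
    have hy : y ^ 2 = 0 := by nlinarith [sq_nonneg x, sq_nonneg y]
    have hz : ∑ j : β, z j ^ 2 = 0 := by nlinarith [sq_nonneg x, sq_nonneg y]
    refine ⟨pow_eq_zero_iff (two_ne_zero) |>.1 hx, pow_eq_zero_iff (two_ne_zero) |>.1 hy, ?_⟩
    intro j
    have := (Finset.sum_eq_zero_iff_of_nonneg (fun j _ => sq_nonneg (z j))).1 hz j
      (Finset.mem_univ j)
    exact pow_eq_zero_iff (two_ne_zero) |>.1 this
  · rintro ⟨rfl, rfl, hz⟩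
    simp [hz]

/-- description of the zero set of the union polynomial -/
theorem evG_unionPoly_eq_zero_iff {n : ℕ} {β1 β2 : Type} [Fintype β1] [Fintype β2]
    (P1 : MvPolynomial (Fin n ⊕ β1) ℤ) (P2 : MvPolynomial (Fin n ⊕ β2) ℤ)
    (a : Fin n → ℕ) (w : Unit ⊕ (β1 ⊕ β2) → ℕ) :
    evG (unionPoly P1 P2) a w = 0 ↔
      (w (Sum.inl ()) = 0 ∧ evG P1 a (fun j => w (Sum.inr (Sum.inl j))) = 0 ∧
        ∀ j, w (Sum.inr (Sum.inr j)) = 0) ∨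
      (w (Sum.inl ()) = 1 ∧ evG P2 a (fun j => w (Sum.inr (Sum.inr j))) = 0 ∧
        ∀ j, w (Sum.inr (Sum.inl j)) = 0) := by
  rw [evG_unionPoly, mul_eq_zero, sq_sum_eq_zero_iff, sq_sum_eq_zero_iff]
  have e1 : (((w (Sum.inl ()) : ℕ) : ℤ) = 0) ↔ w (Sum.inl ()) = 0 := by norm_cast
  have e2 : (((w (Sum.inl ()) : ℕ) : ℤ) - 1 = 0) ↔ w (Sum.inl ()) = 1 := by
    rw [sub_eq_zero]; norm_cast
  have e3 : (∀ j : β2, ((w (Sum.inr (Sum.inr j)) : ℕ) : ℤ) = 0) ↔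
      ∀ j : β2, w (Sum.inr (Sum.inr j)) = 0 := by
    refine forall_congr' fun j => ?_
    norm_cast
  have e4 : (∀ j : β1, ((w (Sum.inr (Sum.inl j)) : ℕ) : ℤ) = 0) ↔
      ∀ j : β1, w (Sum.inr (Sum.inl j)) = 0 := by
    refine forall_congr' fun j => ?_
    norm_cast
  rw [e1, e2, e3, e4]

/-- the witness of the union coming from a witness of the first set -/
def wit1 {β1 β2 : Type} (w : β1 → ℕ) : Unit ⊕ (β1 ⊕ β2) → ℕ :=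
  Sum.elim (fun _ => 0) (Sum.elim w (fun _ => 0))

/-- the witness of the union coming from a witness of the second set -/
def wit2 {β1 β2 : Type} (w : β2 → ℕ) : Unit ⊕ (β1 ⊕ β2) → ℕ :=
  Sum.elim (fun _ => 1) (Sum.elim (fun _ => 0) w)

theorem eq_wit1 {β1 β2 : Type} (w : Unit ⊕ (β1 ⊕ β2) → ℕ) (h0 : w (Sum.inl ()) = 0)
    (h2 : ∀ j, w (Sum.inr (Sum.inr j)) = 0) :
    w = wit1 (fun j => w (Sum.inr (Sum.inl j))) := by
  funext x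
  rcases x with ⟨⟩ | x | x
  · exact h0
  · rfl
  · exact h2 x

theorem eq_wit2 {β1 β2 : Type} (w : Unit ⊕ (β1 ⊕ β2) → ℕ) (h0 : w (Sum.inl ()) = 1)
    (h2 : ∀ j, w (Sum.inr (Sum.inl j)) = 0) :
    w = wit2 (fun j => w (Sum.inr (Sum.inr j))) := by
  funext x
  rcases x with ⟨⟩ | x | x
  · exact h0
  · exact h2 x
  · rfl

theorem represents_union {n : ℕ} {β1 β2 : Type} [Fintype β1] [Fintype β2]
    {S T : Set (Fin n → ℕ)}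
    (P1 : MvPolynomial (Fin n ⊕ β1) ℤ) (P2 : MvPolynomial (Fin n ⊕ β2) ℤ)
    (h1 : ∀ a, a ∈ S ↔ ∃ w, evG P1 a w = 0) (h2 : ∀ a, a ∈ T ↔ ∃ w, evG P2 a w = 0) :
    ∀ a, a ∈ S ∪ T ↔ ∃ w, evG (unionPoly P1 P2) a w = 0 := by
  intro a
  constructor
  · rintro (ha | ha)
    · obtain ⟨w, hw⟩ := (h1 a).1 ha
      refine ⟨wit1 w, (evG_unionPoly_eq_zero_iff P1 P2 a _).2 (Or.inl ⟨rfl, hw, fun _ => rfl⟩)⟩
    · obtain ⟨w, hw⟩ := (h2 a).1 ha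
      refine ⟨wit2 w, (evG_unionPoly_eq_zero_iff P1 P2 a _).2 (Or.inr ⟨rfl, hw, fun _ => rfl⟩)⟩
  · rintro ⟨w, hw⟩
    rcases (evG_unionPoly_eq_zero_iff P1 P2 a w).1 hw with ⟨_, h, _⟩ | ⟨_, h, _⟩
    · exact Or.inl ((h1 a).2 ⟨_, h⟩)
    · exact Or.inr ((h2 a).2 ⟨_, h⟩)

theorem SFG_union {n : ℕ} {S T : Set (Fin n → ℕ)} (hS : SFG S) (hT : SFG T)
    (hd : Disjoint S T) : SFG (S ∪ T) := by
  obtain ⟨β1, i1, P1, h1, u1⟩ := hS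
  obtain ⟨β2, i2, P2, h2, u2⟩ := hT
  refine ⟨Unit ⊕ (β1 ⊕ β2), inferInstance, unionPoly P1 P2, represents_union P1 P2 h1 h2, ?_⟩
  intro a w w' hw hw'
  rcases (evG_unionPoly_eq_zero_iff P1 P2 a w).1 hw with ⟨c, h, z⟩ | ⟨c, h, z⟩ <;>
    rcases (evG_unionPoly_eq_zero_iff P1 P2 a w').1 hw' with ⟨c', h', z'⟩ | ⟨c', h', z'⟩
  · rw [eq_wit1 w c z, eq_wit1 w' c' z', u1 a _ _ h h']
  · exact absurd ((h2 a).2 ⟨_, h'⟩) (Set.disjoint_left.1 hd ((h1 a).2 ⟨_, h⟩))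
  · exact absurd ((h2 a).2 ⟨_, h⟩) (Set.disjoint_left.1 hd ((h1 a).2 ⟨_, h'⟩))
  · rw [eq_wit2 w c z, eq_wit2 w' c' z', u2 a _ _ h h']

theorem FFG_union {n : ℕ} {S T : Set (Fin n → ℕ)} (hS : FFG S) (hT : FFG T) : FFG (S ∪ T) := by
  obtain ⟨β1, i1, P1, h1, f1⟩ := hS
  obtain ⟨β2, i2, P2, h2, f2⟩ := hT
  refine ⟨Unit ⊕ (β1 ⊕ β2), inferInstance, unionPoly P1 P2, represents_union P1 P2 h1 h2, ?_⟩
  intro a
  refine (((f1 a).image (wit1 (β2 := β2))).union ((f2 a).image (wit2 (β1 := β1)))).subset ?_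
  intro w hw
  rcases (evG_unionPoly_eq_zero_iff P1 P2 a w).1 hw with ⟨c, h, z⟩ | ⟨c, h, z⟩
  · exact Or.inl ⟨_, h, (eq_wit1 w c z).symm⟩
  · exact Or.inr ⟨_, h, (eq_wit2 w c z).symm⟩

end Vale.Agent.Lib.P345
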