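import Vale.Agent.Lib.P345.Reindex
import Vale.Agent.Lib.P345.Inter
import Vale.Agent.Lib.P345.Union
import Vale.Agent.Lib.P345.Atoms
import Vale.Agent.Lib.P345.Div
import Vale.Agent.Lib.P345.NDiv
import Vale.Agent.Lib.P345.Proj

namespace Vale.Agent.Lib.P345

open MvPolynomial

lemma pv_neg {n : ℕ} (p : MvPolynomial (Fin n) ℤ) (a : Fin n → ℕ) : pv (-p) a = - pv p a := by
  simp [pv]

lemma pv_sub_one {n : ℕ} (p : MvPolynomial (Fin n) ℤ) (a : Fin n → ℕ) :
    pv (p - 1) a = pv p a - 1 := by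
  simp [pv]

theorem SFG_pos {n : ℕ} (p : MvPolynomial (Fin n) ℤ) : SFG {a | 0 < pv p a} := by
  have h := SFG_nonneg (p - 1)
  have e : {a : Fin n → ℕ | 0 ≤ pv (p - 1) a} = {a | 0 < pv p a} := by
    ext a
    simp only [Set.mem_setOf_eq, pv_sub_one]
    omega
  rwa [e] at h

theorem SFG_neg' {n : ℕ} (p : MvPolynomial (Fin n) ℤ) : SFG {a | pv p a < 0} := by
  have h := SFG_pos (-p)
  have e : {a : Fin n → ℕ | 0 < pv (-p) a} = {a | pv p a < 0} := by
    ext a
    simp only [Set.mem_setOf_eq, pv_neg]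
    omega
  rwa [e] at h

theorem SFG_ne0 {n : ℕ} (p : MvPolynomial (Fin n) ℤ) : SFG {a | pv p a ≠ 0} := by
  have h := SFG_union (SFG_pos p) (SFG_neg' p) (by
    rw [Set.disjoint_left]
    intro a h1 h2
    simp only [Set.mem_setOf_eq] at h1 h2
    omega)
  have e : {a : Fin n → ℕ | 0 < pv p a} ∪ {a | pv p a < 0} = {a | pv p a ≠ 0} := by
    ext a
    simp only [Set.mem_union, Set.mem_setOf_eq]
    omega
  rwa [e] at h

theorem SFG_dvd {n : ℕ} (p q : MvPolynomial (Fin n) ℤ) : SFG {a | pv p a ∣ pv q a} := by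
  have h1 := SFG_inter (SFG_eq0 p) (SFG_eq0 q)
  have h2 := SFG_pos_dvd p q
  have h3 := SFG_pos_dvd (-p) q
  have h23 := SFG_union h2 h3 (by
    rw [Set.disjoint_left]
    intro a g1 g2
    simp only [Set.mem_setOf_eq, pv_neg] at g1 g2
    omega)
  have h := SFG_union h1 h23 (by
    rw [Set.disjoint_left]
    intro a g1 g2
    simp only [Set.mem_inter_iff, Set.mem_union, Set.mem_setOf_eq, pv_neg] at g1 g2
    omega)
  have e : ({a : Fin n → ℕ | pv p a = 0} ∩ {a | pv q a = 0}) ∪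
      ({a | 0 < pv p a ∧ pv p a ∣ pv q a} ∪ {a | 0 < pv (-p) a ∧ pv (-p) a ∣ pv q a})
      = {a | pv p a ∣ pv q a} := by
    ext a
    simp only [Set.mem_inter_iff, Set.mem_union, Set.mem_setOf_eq, pv_neg, neg_dvd]
    constructor
    · rintro (⟨g1, g2⟩ | ⟨_, g⟩ | ⟨_, g⟩)
      · rw [g1, g2]
      · exact g
      · exact g
    · intro g
      rcases lt_trichotomy (pv p a) 0 with g0 | g0 | g0
      · exact Or.inr (Or.inr ⟨by omega, g⟩)
      · refine Or.inl ⟨g0, ?_⟩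
        rw [g0] at g
        exact zero_dvd_iff.mp g
      · exact Or.inr (Or.inl ⟨g0, g⟩)
  rwa [e] at h

theorem SFG_not_dvd {n : ℕ} (p q : MvPolynomial (Fin n) ℤ) :
    SFG {a | ¬ pv p a ∣ pv q a} := by
  have h1 := SFG_inter (SFG_eq0 p) (SFG_ne0 q)
  have h2 := SFG_pos_not_dvd p q
  have h3 := SFG_pos_not_dvd (-p) q
  have h23 := SFG_union h2 h3 (by
    rw [Set.disjoint_left]
    intro a g1 g2
    simp only [Set.mem_setOf_eq, pv_neg] at g1 g2
    omega)
  have h := SFG_union h1 h23 (by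
    rw [Set.disjoint_left]
    intro a g1 g2
    simp only [Set.mem_inter_iff, Set.mem_union, Set.mem_setOf_eq, pv_neg] at g1 g2
    omega)
  have e : ({a : Fin n → ℕ | pv p a = 0} ∩ {a | pv q a ≠ 0}) ∪
      ({a | 0 < pv p a ∧ ¬ pv p a ∣ pv q a} ∪ {a | 0 < pv (-p) a ∧ ¬ pv (-p) a ∣ pv q a})
      = {a | ¬ pv p a ∣ pv q a} := by
    ext a
    simp only [Set.mem_inter_iff, Set.mem_union, Set.mem_setOf_eq, pv_neg, neg_dvd]
    constructor
    · rintro (⟨g1, g2⟩ | ⟨_, g⟩ | ⟨_, g⟩)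
      · rw [g1, zero_dvd_iff]; exact g2
      · exact g
      · exact g
    · intro g
      rcases lt_trichotomy (pv p a) 0 with g0 | g0 | g0
      · exact Or.inr (Or.inr ⟨by omega, g⟩)
      · refine Or.inl ⟨g0, ?_⟩
        rw [g0, zero_dvd_iff] at g
        exact g
      · exact Or.inr (Or.inl ⟨g0, g⟩)
  rwa [e] at h

/-- union of two sets that are single-fold together with their complements -/
theorem SFG_union_of_compl {n : ℕ} {S T : Set (Fin n → ℕ)} (hS : SFG S) (hSc : SFG Sᶜ)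
    (hT : SFG T) : SFG (S ∪ T) := by
  have h := SFG_union hS (SFG_inter hSc hT) (by
    rw [Set.disjoint_left]
    intro a g1 g2
    exact g2.1 g1)
  have e : S ∪ (Sᶜ ∩ T) = S ∪ T := by
    ext a
    simp only [Set.mem_union, Set.mem_inter_iff, Set.mem_compl_iff]
    tauto
  rwa [e] at h

theorem SFG_QF {n : ℕ} (φ : QF n) : SFG {a | φ.holds a} ∧ SFG {a | ¬ φ.holds a} := by
  induction φ with
  | eq0 p => exact ⟨SFG_eq0 p, SFG_ne0 p⟩
  | nonneg p =>
    refine ⟨SFG_nonneg p, ?_⟩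
    have h := SFG_neg' p
    have e : {a : Fin n → ℕ | pv p a < 0} = {a | ¬ (QF.nonneg p).holds a} := by
      ext a
      simp only [Set.mem_setOf_eq, QF.holds]
      omega
    rwa [e] at h
  | dvd p q => exact ⟨SFG_dvd p q, SFG_not_dvd p q⟩
  | neg φ ih =>
    refine ⟨ih.2, ?_⟩
    have e : {a : Fin n → ℕ | φ.holds a} = {a | ¬ (QF.neg φ).holds a} := by
      ext a
      simp only [Set.mem_setOf_eq, QF.holds, not_not]
    rw [← e]
    exact ih.1
  | and φ ψ ih1 ih2 =>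
    refine ⟨SFG_inter ih1.1 ih2.1, ?_⟩
    have hc : {a : Fin n → ℕ | ¬ φ.holds a}ᶜ = {a | φ.holds a} := by
      ext a
      simp
    have h := SFG_union_of_compl ih1.2 (by rw [hc]; exact ih1.1) ih2.2
    have e : {a : Fin n → ℕ | ¬ φ.holds a} ∪ {a | ¬ ψ.holds a}
        = {a | ¬ (QF.and φ ψ).holds a} := by
      ext a
      simp only [Set.mem_union, Set.mem_setOf_eq, QF.holds]
      tauto
    rwa [e] at h
  | or φ ψ ih1 ih2 =>
    have hc : {a : Fin n → ℕ | φ.holds a}ᶜ = {a | ¬ φ.holds a} := by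
      ext a
      simp
    have hSc : SFG ({a : Fin n → ℕ | φ.holds a}ᶜ) := hc ▸ ih1.2
    refine ⟨SFG_union_of_compl ih1.1 hSc ih2.1, ?_⟩
    have h := SFG_inter ih1.2 ih2.2
    have e : {a : Fin n → ℕ | ¬ φ.holds a} ∩ {a | ¬ ψ.holds a}
        = {a | ¬ (QF.or φ ψ).holds a} := by
      ext a
      simp only [Set.mem_inter_iff, Set.mem_setOf_eq, QF.holds]
      tauto
    rwa [e] at h

end Vale.Agent.Lib.P345
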