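import Mathlib

namespace Vale.Agent.Lib.P345

theorem pell_eqn {a : ℕ} (a1 : 1 < a) (k : ℕ) :
    Pell.xn a1 k * Pell.xn a1 k + Pell.yn a1 k * Pell.yn a1 k
      = a * a * (Pell.yn a1 k * Pell.yn a1 k) + 1 := by
  have h : Pell.xn a1 k * Pell.xn a1 k - (a * a - 1) * Pell.yn a1 k * Pell.yn a1 k = 1 :=
    Pell.pell_eq a1 k
  obtain ⟨b, rfl⟩ : ∃ b, a = b + 1 := ⟨a - 1, by omega⟩
  have e : (b + 1) * (b + 1) - 1 = b * b + 2 * b := by
    have : (b + 1) * (b + 1) = b * b + 2 * b + 1 := by ring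
    omega
  rw [e] at h
  generalize Pell.xn a1 k = x at h ⊢
  generalize Pell.yn a1 k = y at h ⊢
  have h2 : x * x = (b * b + 2 * b) * y * y + 1 := by omega
  rw [h2]
  ring

theorem pell_quot {a : ℕ} (a1 : 1 < a) (k : ℕ) : ∃ q, Pell.yn a1 k + q = k + a * q := by
  have h1 : Pell.yn a1 k ≡ k [MOD a - 1] := Pell.yn_modEq_a_sub_one a1 k
  have h2 : k ≤ Pell.yn a1 k := (Pell.strictMono_y a1).le_apply
  have h3 : (a - 1) ∣ Pell.yn a1 k - k := (Nat.modEq_iff_dvd' h2).1 h1.symm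
  obtain ⟨q, hq⟩ := h3
  refine ⟨q, ?_⟩
  obtain ⟨b, rfl⟩ : ∃ b, a = b + 1 := ⟨a - 1, by omega⟩
  have e : b + 1 - 1 = b := by omega
  rw [e] at hq
  have : (b + 1) * q = b * q + q := by ring
  omega

theorem quot_unique (a y k q q' : ℕ) (a1 : 1 < a) (h : y + q = k + a * q)
    (h' : y + q' = k + a * q') : q = q' := by
  obtain ⟨b, rfl⟩ : ∃ b, a = b + 2 := ⟨a - 2, by omega⟩
  have e1 : (b + 2) * q = (b + 1) * q + q := by ring
  have e2 : (b + 2) * q' = (b + 1) * q' + q' := by ring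
  have h3 : (b + 1) * q = (b + 1) * q' := by omega
  exact Nat.eq_of_mul_eq_mul_left (Nat.succ_pos b) h3

end Vale.Agent.Lib.P345
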