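import Mathlib

namespace Vale.Agent.Lib.P345

theorem fin_sound {a : ℕ} (a1 : 1 < a) (c m q : ℕ) (ha : 2 ^ c < a) (hm : m + 5 < 4 * a)
    (h : Pell.xn a1 c + 4 * a + 2 * Pell.yn a1 c + 5 * q
      = Pell.yn a1 c * a + m + 4 * a * q + 5) : m = 2 ^ c := by
  have hd := Pell.x_sub_y_dvd_pow a1 2 c
  unfold Pell.xz Pell.yz at hd
  have hz : ((Pell.xn a1 c : ℤ) + 4 * a + 2 * Pell.yn a1 c + 5 * q
      = Pell.yn a1 c * a + m + 4 * a * q + 5) := by exact_mod_cast h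
  have haz : ((2 ^ c : ℕ) : ℤ) < a := by exact_mod_cast ha
  have hmz : (m : ℤ) + 5 < 4 * a := by exact_mod_cast hm
  have a1z : (1 : ℤ) < a := by exact_mod_cast a1
  have hp0 : (0 : ℤ) ≤ ((2 ^ c : ℕ) : ℤ) := Int.natCast_nonneg _
  have hm0 : (0 : ℤ) ≤ (m : ℤ) := Int.natCast_nonneg _
  have e1 : (2 * (a : ℤ) * ((2 : ℕ) : ℤ) - ((2 : ℕ) : ℤ) * ((2 : ℕ) : ℤ) - 1) = 4 * a - 5 := by
    push_cast
    ring
  rw [e1] at hd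
  have e2 : (Pell.yn a1 c : ℤ) * ((a : ℤ) - ((2 : ℕ) : ℤ)) + ((2 ^ c : ℕ) : ℤ) - (Pell.xn a1 c : ℤ)
      = (((2 ^ c : ℕ) : ℤ) - m) + (4 * (a : ℤ) - 5) * (1 - q) := by
    push_cast
    linear_combination (-1 : ℤ) * hz
  rw [e2] at hd
  have hd2 : (4 * (a : ℤ) - 5) ∣ (((2 ^ c : ℕ) : ℤ) - m) :=
    (Int.dvd_add_left (Dvd.intro _ rfl)).1 hd
  have habs : |(((2 ^ c : ℕ) : ℤ) - m)| < 4 * (a : ℤ) - 5 := by
    rw [abs_lt]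
    constructor <;> linarith
  have h0 := Int.eq_zero_of_abs_lt_dvd hd2 habs
  have h1 : ((2 ^ c : ℕ) : ℤ) = (m : ℤ) := by linarith
  exact_mod_cast h1.symm

end Vale.Agent.Lib.P345
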