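import Mathlib

namespace Vale.Agent.Lib.P345

theorem fin_exists {a : ℕ} (a1 : 1 < a) (c : ℕ) (ha : 2 ^ c < a) :
    ∃ q, Pell.xn a1 c + 4 * a + 2 * Pell.yn a1 c + 5 * q
      = Pell.yn a1 c * a + 2 ^ c + 4 * a * q + 5 := by
  obtain ⟨k, hk⟩ := Pell.x_sub_y_dvd_pow a1 2 c
  have hpell := Pell.pell_eqz a1 c
  rw [Pell.dz_val] at hpell
  simp only [Pell.xz, Pell.yz, Pell.az] at hk hpell
  push_cast at hk
  have hx0 : (0 : ℤ) ≤ (Pell.xn a1 c : ℤ) := Int.natCast_nonneg _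
  have hy0 : (0 : ℤ) ≤ (Pell.yn a1 c : ℤ) := Int.natCast_nonneg _
  have ha2 : (2 : ℤ) ≤ (a : ℤ) := by exact_mod_cast a1
  have hc : ((2 : ℤ) ^ c) < (a : ℤ) := by exact_mod_cast ha
  have hxy : (Pell.yn a1 c : ℤ) * ((a : ℤ) - 2) ≤ (Pell.xn a1 c : ℤ) := by
    by_contra hcon
    rw [not_le] at hcon
    have h1 : (Pell.xn a1 c : ℤ) * (Pell.xn a1 c : ℤ)
        < ((Pell.yn a1 c : ℤ) * ((a : ℤ) - 2)) * ((Pell.yn a1 c : ℤ) * ((a : ℤ) - 2)) := by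
      nlinarith
    have h2 : 0 ≤ (Pell.yn a1 c : ℤ) * (Pell.yn a1 c : ℤ) * (4 * (a : ℤ) - 5) := by
      apply mul_nonneg (mul_nonneg hy0 hy0)
      linarith
    nlinarith
  have hk0 : k ≤ 0 := by
    by_contra hcon
    rw [not_le] at hcon
    have h1 : (1 : ℤ) ≤ k := hcon
    have h2 : (4 * (a : ℤ) - 5) * 1 ≤ (4 * (a : ℤ) - 5) * k :=
      mul_le_mul_of_nonneg_left h1 (by linarith)
    nlinarith
  refine ⟨(1 - k).toNat, ?_⟩
  have hq : (((1 - k).toNat : ℕ) : ℤ) = 1 - k := Int.toNat_of_nonneg (by linarith)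
  have goal : ((Pell.xn a1 c + 4 * a + 2 * Pell.yn a1 c + 5 * (1 - k).toNat : ℕ) : ℤ)
      = ((Pell.yn a1 c * a + 2 ^ c + 4 * a * (1 - k).toNat + 5 : ℕ) : ℤ) := by
    push_cast
    rw [hq]
    linarith
  exact_mod_cast goal

theorem fin_unique (a x y m q q' : ℕ) (ha : 2 ≤ a)
    (h : x + 4 * a + 2 * y + 5 * q = y * a + m + 4 * a * q + 5)
    (h' : x + 4 * a + 2 * y + 5 * q' = y * a + m + 4 * a * q' + 5) : q = q' := by
  obtain ⟨b, rfl⟩ := Nat.exists_eq_add_of_le ha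
  have h1 : (4 * b + 3) * q = (4 * b + 3) * q' := by nlinarith
  exact Nat.eq_of_mul_eq_mul_left (by omega) h1

end Vale.Agent.Lib.P345
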