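import Mathlib

namespace Vale.Agent.Lib.P345

theorem pell_yn_le {a : ℕ} (a1 : 1 < a) (k : ℕ) : Pell.yn a1 k ≤ (2 * a) ^ k := by
  have key : ∀ n, Pell.yn a1 n ≤ (2 * a) ^ n ∧ Pell.yn a1 (n + 1) ≤ (2 * a) ^ (n + 1) := by
    intro n
    induction n with
    | zero =>
      refine ⟨by simp, ?_⟩
      rw [Pell.yn_one]
      simp only [zero_add, pow_one]
      omega
    | succ n ih =>
      refine ⟨ih.2, ?_⟩
      have h := Pell.yn_succ_succ a1 n
      have h1 : Pell.yn a1 (n + 2) ≤ 2 * a * Pell.yn a1 (n + 1) := by omega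
      calc Pell.yn a1 (n + 1 + 1) ≤ 2 * a * Pell.yn a1 (n + 1) := h1
        _ ≤ 2 * a * (2 * a) ^ (n + 1) := Nat.mul_le_mul_left _ ih.2
        _ = (2 * a) ^ (n + 1 + 1) := by rw [pow_succ (2 * a) (n + 1)]; ring
  exact (key k).1

end Vale.Agent.Lib.P345
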