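import Mathlib

namespace Vale.Agent.Lib.P345

/-- a solution of the Pell equation with `y ≡ k (mod a - 1)`, `k + 1 < a`, `y < a ^ (a - 2)` is the
`k`-th one -/
theorem pell_select {a : ℕ} (a1 : 1 < a) (k x y q B : ℕ) (hk : k + 1 < a) (hB : B ≤ a ^ (a - 2))
    (hp : x * x + y * y = a * a * (y * y) + 1) (hq : y + q = k + a * q) (hy : y < B) :
    x = Pell.xn a1 k ∧ y = Pell.yn a1 k := by
  have hp2 : x * x - (a * a - 1) * y * y = 1 := by
    have haa : 1 ≤ a * a := Nat.one_le_iff_ne_zero.2 (by positivity)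
    have h1 : (a * a - 1) * y * y + y * y = a * a * (y * y) := by
      have : (a * a - 1) * y * y + y * y = ((a * a - 1) + 1) * (y * y) := by ring
      rw [this, Nat.sub_add_cancel haa]
    omega
  obtain ⟨j, hxj, hyj⟩ := Pell.eq_pell a1 hp2
  have hmod1 : Pell.yn a1 j ≡ j [MOD a - 1] := Pell.yn_modEq_a_sub_one a1 j
  have hyk : y = k + (a - 1) * q := by
    have h2 : a * q = (a - 1) * q + q := by
      have : a = (a - 1) + 1 := by omega
      calc a * q = ((a - 1) + 1) * q := by rw [← this]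
        _ = (a - 1) * q + q := by ring
    omega
  have hmod2 : y ≡ k [MOD a - 1] := by
    rw [hyk]
    unfold Nat.ModEq
    rw [Nat.add_mul_mod_self_left]
  have hjk : j ≡ k [MOD a - 1] := by
    rw [← hyj] at hmod1
    exact hmod1.symm.trans hmod2
  have hjlt : j < a - 1 := by
    by_contra hge
    rw [not_lt] at hge
    have h3 : Pell.yn a1 (a - 1) ≤ Pell.yn a1 j := (Pell.strictMono_y a1).monotone hge
    have h4 : a ^ (a - 2) ≤ Pell.xn a1 (a - 2) := Pell.xn_ge_a_pow a1 (a - 2)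
    have h5 : Pell.yn a1 (a - 2 + 1) = Pell.xn a1 (a - 2) + Pell.yn a1 (a - 2) * a :=
      Pell.yn_succ a1 (a - 2)
    have h6 : a - 2 + 1 = a - 1 := by omega
    rw [h6] at h5
    rw [← hyj] at h3
    have h7 : Pell.xn a1 (a - 2) ≤ Pell.yn a1 (a - 1) := by
      rw [h5]; exact Nat.le_add_right _ _
    omega
  have hklt : k < a - 1 := by omega
  have hjeq : j = k := Nat.ModEq.eq_of_lt_of_lt hjk hjlt hklt
  subst hjeq
  exact ⟨hxj, hyj⟩

end Vale.Agent.Lib.P345
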