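import Mathlib

namespace Vale.Agent.Lib.P345

private theorem powChar_bound (b c : ℕ) : b ^ c + b < 2 ^ (b * c + b + 1) := by
  have h1 : b < 2 ^ b := Nat.lt_two_pow_self
  have h2 : b ^ c ≤ 2 ^ (b * c) := by
    rw [pow_mul]
    exact Nat.pow_le_pow_left h1.le c
  have h3 : 2 ^ (b * c) ≤ 2 ^ (b * c + b) := Nat.pow_le_pow_right (by norm_num) (by omega)
  have h4 : 2 ^ b ≤ 2 ^ (b * c + b) := Nat.pow_le_pow_right (by norm_num) (by omega)
  have h5 : 2 ^ (b * c + b + 1) = 2 ^ (b * c + b) + 2 ^ (b * c + b) := by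
    rw [pow_succ]
    ring
  omega

/-- `b ^ c` is the remainder of `x ^ c` modulo `x - b` for `x = 2 ^ (b * c + b + 1)`: existence of
the quotient -/
theorem powChar_exists (b c : ℕ) :
    ∃ z : ℕ, 2 ^ ((b * c + b + 1) * c) + b * z = 2 ^ (b * c + b + 1) * z + b ^ c ∧
      b ^ c + b < 2 ^ (b * c + b + 1) := by
  have hb := powChar_bound b c
  rw [pow_mul]
  generalize 2 ^ (b * c + b + 1) = x at hb ⊢
  have hbx : b ≤ x := by omega
  obtain ⟨d, rfl⟩ := Nat.exists_eq_add_of_le hbx
  obtain ⟨z, hz⟩ := Nat.sub_dvd_pow_sub_pow (b + d) b c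
  have hle : b ^ c ≤ (b + d) ^ c := Nat.pow_le_pow_left (by omega) c
  have hd : b + d - b = d := by omega
  rw [hd] at hz
  refine ⟨z, ?_, hb⟩
  have h1 : (b + d) ^ c = b ^ c + d * z := by omega
  rw [h1]
  ring

/-- the quotient is unique -/
theorem powChar_unique (a b x y z z' : ℕ) (h1 : y + b * z = x * z + a)
    (h1' : y + b * z' = x * z' + a) (h2 : a + b < x) : z = z' := by
  have hbx : b ≤ x := by omega
  obtain ⟨d, rfl⟩ := Nat.exists_eq_add_of_le hbx
  have hd : 0 < d := by omega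
  have e1 : y = d * z + a := by
    have : (b + d) * z = b * z + d * z := by ring
    omega
  have e2 : y = d * z' + a := by
    have : (b + d) * z' = b * z' + d * z' := by ring
    omega
  have e3 : d * z = d * z' := by omega
  exact Nat.eq_of_mul_eq_mul_left hd e3

/-- soundness -/
theorem powChar_sound (a b c z : ℕ)
    (h1 : 2 ^ ((b * c + b + 1) * c) + b * z = 2 ^ (b * c + b + 1) * z + a)
    (h2 : a + b < 2 ^ (b * c + b + 1)) : a = b ^ c := by
  obtain ⟨z0, h3, h4⟩ := powChar_exists b c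
  generalize 2 ^ ((b * c + b + 1) * c) = y at h1 h3
  generalize 2 ^ (b * c + b + 1) = x at h1 h2 h3 h4
  have hbx : b ≤ x := by omega
  obtain ⟨d, rfl⟩ := Nat.exists_eq_add_of_le hbx
  have e1 : y = d * z + a := by
    have : (b + d) * z = b * z + d * z := by ring
    omega
  have e2 : y = d * z0 + b ^ c := by
    have : (b + d) * z0 = b * z0 + d * z0 := by ring
    omega
  have ha : a < d := by omega
  have hbc : b ^ c < d := by omega
  have m1 : y % d = a := by
    rw [e1, Nat.mul_add_mod, Nat.mod_eq_of_lt ha]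
  have m2 : y % d = b ^ c := by
    rw [e2, Nat.mul_add_mod, Nat.mod_eq_of_lt hbc]
  omega

end Vale.Agent.Lib.P345
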