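import Vale.Agent.Lib.P345.Pow2Defs
import Vale.Agent.Lib.P345.Comap
import Vale.Agent.Lib.P345.PowChar
import Vale.Agent.Lib.P345.MultiProjS
import Vale.Agent.Lib.P345.MultiProjF
import Vale.Agent.Lib.P345.Inter
import Vale.Agent.Lib.P345.Atoms
import Vale.Agent.Lib.P345.Graph

namespace Vale.Agent.Lib.P345

open MvPolynomial

abbrev iA : Fin (3 + 3) := Fin.castAdd 3 0
abbrev iB : Fin (3 + 3) := Fin.castAdd 3 1
abbrev iC : Fin (3 + 3) := Fin.castAdd 3 2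
abbrev iX : Fin (3 + 3) := Fin.natAdd 3 0
abbrev iY : Fin (3 + 3) := Fin.natAdd 3 1
abbrev iZ : Fin (3 + 3) := Fin.natAdd 3 2

/-- the system `x = 2 ^ t`, `y = 2 ^ (t c)`, `y + b z = x z + a`, `a + b < x` with
`t = b c + b + 1` -/
def TT : Set (Fin (3 + 3) → ℕ) :=
  {u | u iX = 2 ^ (u iB * u iC + u iB + 1) ∧ u iY = 2 ^ ((u iB * u iC + u iB + 1) * u iC) ∧
     u iY + u iB * u iZ = u iX * u iZ + u iA ∧ u iA + u iB < u iX}

noncomputable def q1 : Fin 2 → MvPolynomial (Fin (3 + 3)) ℤ := ![X iX, X iB * X iC + X iB + 1]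
noncomputable def q2 : Fin 2 → MvPolynomial (Fin (3 + 3)) ℤ :=
  ![X iY, (X iB * X iC + X iB + 1) * X iC]
def f1 (u : Fin (3 + 3) → ℕ) : Fin 2 → ℕ := ![u iX, u iB * u iC + u iB + 1]
def f2 (u : Fin (3 + 3) → ℕ) : Fin 2 → ℕ := ![u iY, (u iB * u iC + u iB + 1) * u iC]
noncomputable def p3 : MvPolynomial (Fin (3 + 3)) ℤ := X iY + X iB * X iZ - X iX * X iZ - X iA
noncomputable def p4 : MvPolynomial (Fin (3 + 3)) ℤ := X iX - X iA - X iB - 1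

theorem hq1 (u : Fin (3 + 3) → ℕ) (i : Fin 2) : pv (q1 i) u = (f1 u i : ℤ) := by
  fin_cases i <;> simp [pv, q1, f1]

theorem hq2 (u : Fin (3 + 3) → ℕ) (i : Fin 2) : pv (q2 i) u = (f2 u i : ℤ) := by
  fin_cases i <;> simp [pv, q2, f2]

theorem TT_eq : TT = ({u | f1 u ∈ Pow2Graph} ∩ {u | f2 u ∈ Pow2Graph}) ∩
    ({u | pv p3 u = 0} ∩ {u | 0 ≤ pv p4 u}) := by
  ext u
  have e1 : f1 u ∈ Pow2Graph ↔ u iX = 2 ^ (u iB * u iC + u iB + 1) := Iff.rfl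
  have e2 : f2 u ∈ Pow2Graph ↔ u iY = 2 ^ ((u iB * u iC + u iB + 1) * u iC) := Iff.rfl
  have e3 : pv p3 u = 0 ↔ u iY + u iB * u iZ = u iX * u iZ + u iA := by
    have : pv p3 u = (u iY : ℤ) + u iB * u iZ - u iX * u iZ - u iA := by simp [pv, p3]
    rw [this]
    constructor
    · intro h
      have : ((u iY + u iB * u iZ : ℕ) : ℤ) = ((u iX * u iZ + u iA : ℕ) : ℤ) := by
        push_cast; linarith
      exact_mod_cast this
    · intro h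
      have : ((u iY + u iB * u iZ : ℕ) : ℤ) = ((u iX * u iZ + u iA : ℕ) : ℤ) := by rw [h]
      push_cast at this; linarith
  have e4 : 0 ≤ pv p4 u ↔ u iA + u iB < u iX := by
    have : pv p4 u = (u iX : ℤ) - u iA - u iB - 1 := by simp [pv, p4]
    rw [this]
    omega
  constructor
  · rintro ⟨h1, h2, h3, h4⟩
    exact ⟨⟨e1.2 h1, e2.2 h2⟩, ⟨e3.2 h3, e4.2 h4⟩⟩
  · rintro ⟨⟨h1, h2⟩, ⟨h3, h4⟩⟩
    exact ⟨e1.1 h1, e2.1 h2, e3.1 h3, e4.1 h4⟩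

theorem SFG_TT (h : SFG Pow2Graph) : SFG TT := by
  rw [TT_eq]
  exact SFG_inter (SFG_inter (SFG_comap h q1 f1 hq1) (SFG_comap h q2 f2 hq2))
    (SFG_inter (SFG_eq0 p3) (SFG_nonneg p4))

theorem FFG_TT (h : FFG Pow2Graph) : FFG TT := by
  rw [TT_eq]
  exact FFG_inter (FFG_inter (FFG_comap h q1 f1 hq1) (FFG_comap h q2 f2 hq2))
    (FFG_inter (FFG_of_SFG (SFG_eq0 p3)) (FFG_of_SFG (SFG_nonneg p4)))

theorem append_mem_TT (a w : Fin 3 → ℕ) : Fin.append a w ∈ TT ↔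
    (w 0 = 2 ^ (a 1 * a 2 + a 1 + 1) ∧ w 1 = 2 ^ ((a 1 * a 2 + a 1 + 1) * a 2) ∧
     w 1 + a 1 * w 2 = w 0 * w 2 + a 0 ∧ a 0 + a 1 < w 0) := by
  unfold TT
  simp only [Set.mem_setOf_eq, iA, iB, iC, iX, iY, iZ, Fin.append_left, Fin.append_right]

theorem ExpGraph_eq : ExpGraph = {a : Fin 3 → ℕ | ∃ w : Fin 3 → ℕ, Fin.append a w ∈ TT} := by
  ext a
  constructor
  · intro h
    have h' : a 0 = a 1 ^ a 2 := h
    obtain ⟨z, hz1, hz2⟩ := powChar_exists (a 1) (a 2)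
    refine ⟨![2 ^ (a 1 * a 2 + a 1 + 1), 2 ^ ((a 1 * a 2 + a 1 + 1) * a 2), z], ?_⟩
    rw [append_mem_TT]
    refine ⟨rfl, rfl, ?_, ?_⟩
    · rw [h']; exact hz1
    · rw [h']; exact hz2
  · rintro ⟨w, hw⟩
    rw [append_mem_TT] at hw
    obtain ⟨h1, h2, h3, h4⟩ := hw
    rw [h1, h2] at h3
    rw [h1] at h4
    exact powChar_sound _ _ _ _ h3 h4

theorem TT_unique (a w w' : Fin 3 → ℕ) (hw : Fin.append a w ∈ TT) (hw' : Fin.append a w' ∈ TT) :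
    w = w' := by
  rw [append_mem_TT] at hw hw'
  obtain ⟨h1, h2, h3, h4⟩ := hw
  obtain ⟨h1', h2', h3', h4'⟩ := hw'
  have e0 : w 0 = w' 0 := by rw [h1, h1']
  have e1 : w 1 = w' 1 := by rw [h2, h2']
  have e2 : w 2 = w' 2 := by
    rw [← e0, ← e1] at h3'
    exact powChar_unique _ _ _ _ _ _ h3 h3' h4
  funext i
  fin_cases i
  · exact e0
  · exact e1
  · exact e2

theorem SFG_Exp_of_Pow2 (h : SFG Pow2Graph) : SFG ExpGraph := by
  rw [ExpGraph_eq]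
  exact SFG_multiProj (SFG_TT h) TT_unique

theorem FFG_Exp_of_Pow2 (h : FFG Pow2Graph) : FFG ExpGraph := by
  rw [ExpGraph_eq]
  refine FFG_multiProj (FFG_TT h) (fun a => ?_)
  apply Set.Subsingleton.finite
  intro w hw w' hw'
  exact TT_unique a w w' hw hw'

noncomputable def q0 : Fin 3 → MvPolynomial (Fin 2) ℤ := ![X 0, 2, X 1]
def f0 (u : Fin 2 → ℕ) : Fin 3 → ℕ := ![u 0, 2, u 1]

theorem hq0 (u : Fin 2 → ℕ) (i : Fin 3) : pv (q0 i) u = (f0 u i : ℤ) := by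
  fin_cases i <;> simp [pv, q0, f0]

theorem Pow2Graph_eq : Pow2Graph = {u | f0 u ∈ ExpGraph} := rfl

theorem SFG_Pow2_of_Exp (h : SFG ExpGraph) : SFG Pow2Graph := by
  rw [Pow2Graph_eq]
  exact SFG_comap h q0 f0 hq0

theorem FFG_Pow2_of_Exp (h : FFG ExpGraph) : FFG Pow2Graph := by
  rw [Pow2Graph_eq]
  exact FFG_comap h q0 f0 hq0

end Vale.Agent.Lib.P345
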