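import Vale.Agent.Lib.P345.ExpDefs

namespace Vale.Agent.Lib.P345

/-- the graph of the power of two: pairs `(a, c)` with `a = 2 ^ c` -/
def Pow2Graph : Set (Fin 2 → ℕ) := {v | v 0 = 2 ^ v 1}

end Vale.Agent.Lib.P345
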