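import Vale.Agent.Lib.P345.Pow2Defs

namespace Vale.Agent.Lib.P345

theorem primrec_pow : Primrec₂ (fun x y : ℕ => x ^ y) :=
  Primrec₂.unpaired'.1 Nat.Primrec.pow

/-- the graph of the power of two is recursively enumerable -/
theorem Pow2Graph_re : REPred (fun v : Fin 2 → ℕ => v ∈ Pow2Graph) := by
  apply ComputablePred.to_re
  apply PrimrecPred.computablePred
  have h0 : Primrec (fun v : Fin 2 → ℕ => v 0) :=
    Primrec.fin_app.comp Primrec.id (Primrec.const 0)
  have h1 : Primrec (fun v : Fin 2 → ℕ => v 1) :=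
    Primrec.fin_app.comp Primrec.id (Primrec.const 1)
  have h2 : Primrec (fun v : Fin 2 → ℕ => 2 ^ v 1) :=
    primrec_pow.comp (Primrec.const 2) h1
  exact Primrec.eq.comp h0 h2

end Vale.Agent.Lib.P345
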