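import Mathlib

namespace Vale.Agent.Lib.P345

theorem two_mul_pow_lt (a k : ℕ) (h : 16 * ((k + 1) * (k + 1)) ≤ a) : (2 * a) ^ k < 2 ^ a := by
  obtain ⟨s, hs⟩ : ∃ s, s = Nat.sqrt a := ⟨_, rfl⟩
  have h1 : s * s ≤ a := by rw [hs]; exact Nat.sqrt_le a
  have h2 : a < (s + 1) * (s + 1) := by rw [hs]; exact Nat.lt_succ_sqrt a
  have h3 : 4 * (k + 1) ≤ s := by
    rw [hs, Nat.le_sqrt]
    calc 4 * (k + 1) * (4 * (k + 1)) = 16 * ((k + 1) * (k + 1)) := by ring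
      _ ≤ a := h
  have h4 : s + 1 ≤ 2 ^ s := Nat.lt_two_pow_self
  have h5 : 2 * a ≤ 2 ^ (2 * s + 1) := by
    calc 2 * a ≤ 2 * ((s + 1) * (s + 1)) := by omega
      _ ≤ 2 * (2 ^ s * 2 ^ s) := by
          apply Nat.mul_le_mul_left
          exact Nat.mul_le_mul h4 h4
      _ = 2 ^ (2 * s + 1) := by ring
  have h6 : (2 * a) ^ k ≤ 2 ^ ((2 * s + 1) * k) := by
    calc (2 * a) ^ k ≤ (2 ^ (2 * s + 1)) ^ k := Nat.pow_le_pow_left h5 k
      _ = 2 ^ ((2 * s + 1) * k) := by rw [← pow_mul]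
  have h7 : (2 * s + 1) * k < a := by
    have : (2 * s + 1) * k < s * (4 * (k + 1)) := by nlinarith
    have h8 : s * (4 * (k + 1)) ≤ s * s := Nat.mul_le_mul_left s h3
    omega
  exact lt_of_le_of_lt h6 (Nat.pow_lt_pow_right (by norm_num) h7)

end Vale.Agent.Lib.P345
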