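import Vale.Agent.Lib.P345.JR2Defs
import Vale.Agent.Lib.P345.PowLt
import Vale.Agent.Lib.P345.PellSel
import Vale.Agent.Lib.P345.PellEx
import Vale.Agent.Lib.P345.PellLe
import Vale.Agent.Lib.P345.PellFin
import Vale.Agent.Lib.P345.PellFinEx

namespace Vale.Agent.Lib.P345

theorem AA_ge (c : ℕ) : 4 * c + 64 ≤ 16 * ((c + 2) * (c + 2)) := by nlinarith

theorem AA_ge' (c : ℕ) : 16 * ((c + 1) * (c + 1)) ≤ 16 * ((c + 2) * (c + 2)) := by nlinarith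

theorem hAA (c : ℕ) : 1 < 16 * ((c + 2) * (c + 2)) := by
  have := AA_ge c
  omega

theorem low_of_window {g : ℕ → ℕ} (hg : ExpWindow g) (a k : ℕ)
    (h : 16 * ((k + 1) * (k + 1)) ≤ a) : (2 * a) ^ k < g a := by
  have h8 : 8 ≤ a := by nlinarith
  exact lt_of_lt_of_le (two_mul_pow_lt a k h) (hg a h8).1

/-- the intermediate base -/
def bOf (c : ℕ) : ℕ := Pell.xn (hAA c) (c + 1)

theorem bOf_ge (c : ℕ) : 16 * ((c + 2) * (c + 2)) ≤ bOf c := by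
  have := Pell.xn_ge_a_pow (hAA c) (c + 1)
  calc 16 * ((c + 2) * (c + 2)) = (16 * ((c + 2) * (c + 2))) ^ 1 := (pow_one _).symm
    _ ≤ (16 * ((c + 2) * (c + 2))) ^ (c + 1) :=
        Nat.pow_le_pow_right (le_of_lt (hAA c)) (by omega)
    _ ≤ _ := this

theorem bOf_gt_pow (c : ℕ) : 2 ^ c < bOf c := by
  have := Pell.xn_ge_a_pow (hAA c) (c + 1)
  calc 2 ^ c < 2 ^ (c + 1) := Nat.pow_lt_pow_right (by norm_num) (by omega)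
    _ ≤ (16 * ((c + 2) * (c + 2))) ^ (c + 1) := Nat.pow_le_pow_left (hAA c) _
    _ ≤ _ := this

theorem b1Of (c : ℕ) : 1 < bOf c := lt_of_lt_of_le (hAA c) (bOf_ge c)

theorem Sys2_det {g : ℕ → ℕ} (hg : ExpWindow g) {m c B1 a y1 q1 B2 x2 y2 q2 q3 : ℕ}
    (h : Sys2 g m c B1 a y1 q1 B2 x2 y2 q2 q3) :
    a = bOf c ∧ y1 = Pell.yn (hAA c) (c + 1) ∧ x2 = Pell.xn (b1Of c) c ∧
      y2 = Pell.yn (b1Of c) c ∧ m = 2 ^ c := by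
  obtain ⟨hB1, hB2, e1, e2, i1, e3, e4, i2, e5, i3⟩ := h
  have hge := AA_ge c
  have hbge := bOf_ge c
  have s1 := pell_select (hAA c) (c + 1) a y1 q1 B1 (by omega)
    (by rw [hB1]; exact (hg _ (by omega)).2) e1 e2 i1
  obtain ⟨ha, hy1⟩ := s1
  have ha' : a = bOf c := ha
  subst ha'
  have s2 := pell_select (b1Of c) c x2 y2 q2 B2 (by omega)
    (by rw [hB2]; exact (hg _ (by omega)).2) e3 e4 i2
  obtain ⟨hx2, hy2⟩ := s2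
  refine ⟨rfl, hy1, hx2, hy2, ?_⟩
  rw [hx2, hy2] at e5
  exact fin_sound (b1Of c) c m q3 (bOf_gt_pow c) i3 e5

theorem Sys2_exists {g : ℕ → ℕ} (hg : ExpWindow g) (c : ℕ) :
    ∃ B1 a y1 q1 B2 x2 y2 q2 q3, Sys2 g (2 ^ c) c B1 a y1 q1 B2 x2 y2 q2 q3 := by
  obtain ⟨q1, hq1⟩ := pell_quot (hAA c) (c + 1)
  obtain ⟨q2, hq2⟩ := pell_quot (b1Of c) c
  obtain ⟨q3, hq3⟩ := fin_exists (b1Of c) c (bOf_gt_pow c)
  refine ⟨g (16 * ((c + 2) * (c + 2))), bOf c, Pell.yn (hAA c) (c + 1), q1, g (bOf c),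
    Pell.xn (b1Of c) c, Pell.yn (b1Of c) c, q2, q3, rfl, rfl, pell_eqn (hAA c) (c + 1), hq1, ?_,
    pell_eqn (b1Of c) c, hq2, ?_, hq3, ?_⟩
  · exact lt_of_le_of_lt (pell_yn_le _ _) (low_of_window hg _ _ (le_refl _))
  · exact lt_of_le_of_lt (pell_yn_le _ _)
      (low_of_window hg _ _ (le_trans (AA_ge' c) (bOf_ge c)))
  · have h1 := bOf_gt_pow c
    have h2 : 1 ≤ 2 ^ c := Nat.one_le_two_pow
    generalize 2 ^ c = p at h1 h2 ⊢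
    omega

theorem Sys2_unique {g : ℕ → ℕ} (hg : ExpWindow g)
    {m c B1 a y1 q1 B2 x2 y2 q2 q3 B1' a' y1' q1' B2' x2' y2' q2' q3' : ℕ}
    (h : Sys2 g m c B1 a y1 q1 B2 x2 y2 q2 q3)
    (h' : Sys2 g m c B1' a' y1' q1' B2' x2' y2' q2' q3') :
    B1 = B1' ∧ a = a' ∧ y1 = y1' ∧ q1 = q1' ∧ B2 = B2' ∧ x2 = x2' ∧ y2 = y2' ∧ q2 = q2' ∧
      q3 = q3' := by
  obtain ⟨ha, hy1, hx2, hy2, _⟩ := Sys2_det hg h
  obtain ⟨ha', hy1', hx2', hy2', _⟩ := Sys2_det hg h'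
  obtain ⟨hB1, hB2, e1, e2, i1, e3, e4, i2, e5, i3⟩ := h
  obtain ⟨hB1', hB2', e1', e2', i1', e3', e4', i2', e5', i3'⟩ := h'
  have Ea : a = a' := ha.trans ha'.symm
  have Ey1 : y1 = y1' := hy1.trans hy1'.symm
  have Ex2 : x2 = x2' := hx2.trans hx2'.symm
  have Ey2 : y2 = y2' := hy2.trans hy2'.symm
  have a1 : 1 < a := by rw [ha]; exact b1Of c
  subst Ea Ey1 Ex2 Ey2
  exact ⟨hB1.trans hB1'.symm, rfl, rfl, quot_unique _ _ _ _ _ (hAA c) e2 e2',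
    hB2.trans hB2'.symm, rfl, rfl, quot_unique _ _ _ _ _ a1 e4 e4',
    fin_unique _ _ _ _ _ _ a1 e5 e5'⟩

end Vale.Agent.Lib.P345
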