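import Vale.Agent.Lib.P345.JRDefs
import Vale.Agent.Lib.P345.PellSel
import Vale.Agent.Lib.P345.PellEx
import Vale.Agent.Lib.P345.PellLe
import Vale.Agent.Lib.P345.PellFin
import Vale.Agent.Lib.P345.PellFinEx

namespace Vale.Agent.Lib.P345

theorem hA (c : ℕ) : 1 < 4 * c + 14 := by omega

/-- the intermediate base -/
def aOf (c : ℕ) : ℕ := Pell.xn (hA c) (c + 1)

theorem aOf_ge (c : ℕ) : 4 * c + 14 ≤ aOf c := by
  have := Pell.xn_ge_a_pow (hA c) (c + 1)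
  calc 4 * c + 14 = (4 * c + 14) ^ 1 := (pow_one _).symm
    _ ≤ (4 * c + 14) ^ (c + 1) := Nat.pow_le_pow_right (by omega) (by omega)
    _ ≤ _ := this

theorem aOf_gt_pow (c : ℕ) : 2 ^ c < aOf c := by
  have := Pell.xn_ge_a_pow (hA c) (c + 1)
  calc 2 ^ c < 2 ^ (c + 1) := Nat.pow_lt_pow_right (by norm_num) (by omega)
    _ ≤ (4 * c + 14) ^ (c + 1) := Nat.pow_le_pow_left (by omega) _
    _ ≤ _ := this

theorem a1Of (c : ℕ) : 1 < aOf c := by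
  have := aOf_ge c
  omega

theorem Sys_det {g : ℕ → ℕ} (hg : Window g) {m c B1 a y1 q1 B2 x2 y2 q2 q3 : ℕ}
    (h : Sys g m c B1 a y1 q1 B2 x2 y2 q2 q3) :
    a = aOf c ∧ y1 = Pell.yn (hA c) (c + 1) ∧ x2 = Pell.xn (a1Of c) c ∧
      y2 = Pell.yn (a1Of c) c ∧ m = 2 ^ c := by
  obtain ⟨hB1, hB2, e1, e2, i1, e3, e4, i2, e5, i3⟩ := h
  have s1 := pell_select (hA c) (c + 1) a y1 q1 B1 (by omega)
    (by rw [hB1]; exact hg.2 _ (by omega)) e1 e2 i1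
  obtain ⟨ha, hy1⟩ := s1
  have ha' : a = aOf c := ha
  subst ha'
  have s2 := pell_select (a1Of c) c x2 y2 q2 B2 (by have := aOf_ge c; omega)
    (by rw [hB2]; exact hg.2 _ (by have := aOf_ge c; omega)) e3 e4 i2
  obtain ⟨hx2, hy2⟩ := s2
  refine ⟨rfl, hy1, hx2, hy2, ?_⟩
  rw [hx2, hy2] at e5
  exact fin_sound (a1Of c) c m q3 (aOf_gt_pow c) i3 e5

theorem Sys_exists {g : ℕ → ℕ} (hg : Window g) (c : ℕ) :
    ∃ B1 a y1 q1 B2 x2 y2 q2 q3, Sys g (2 ^ c) c B1 a y1 q1 B2 x2 y2 q2 q3 := by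
  obtain ⟨q1, hq1⟩ := pell_quot (hA c) (c + 1)
  obtain ⟨q2, hq2⟩ := pell_quot (a1Of c) c
  obtain ⟨q3, hq3⟩ := fin_exists (a1Of c) c (aOf_gt_pow c)
  refine ⟨g (4 * c + 14), aOf c, Pell.yn (hA c) (c + 1), q1, g (aOf c), Pell.xn (a1Of c) c,
    Pell.yn (a1Of c) c, q2, q3, rfl, rfl, pell_eqn (hA c) (c + 1), hq1, ?_,
    pell_eqn (a1Of c) c, hq2, ?_, hq3, ?_⟩
  · exact lt_of_le_of_lt (pell_yn_le _ _) (hg.1 _ _ (by omega))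
  · exact lt_of_le_of_lt (pell_yn_le _ _) (hg.1 _ _ (by have := aOf_ge c; omega))
  · have h1 := aOf_gt_pow c
    have h2 : 1 ≤ 2 ^ c := Nat.one_le_two_pow
    generalize 2 ^ c = p at h1 h2 ⊢
    omega

theorem Sys_unique {g : ℕ → ℕ} (hg : Window g)
    {m c B1 a y1 q1 B2 x2 y2 q2 q3 B1' a' y1' q1' B2' x2' y2' q2' q3' : ℕ}
    (h : Sys g m c B1 a y1 q1 B2 x2 y2 q2 q3)
    (h' : Sys g m c B1' a' y1' q1' B2' x2' y2' q2' q3') :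
    B1 = B1' ∧ a = a' ∧ y1 = y1' ∧ q1 = q1' ∧ B2 = B2' ∧ x2 = x2' ∧ y2 = y2' ∧ q2 = q2' ∧
      q3 = q3' := by
  obtain ⟨ha, hy1, hx2, hy2, _⟩ := Sys_det hg h
  obtain ⟨ha', hy1', hx2', hy2', _⟩ := Sys_det hg h'
  obtain ⟨hB1, hB2, e1, e2, i1, e3, e4, i2, e5, i3⟩ := h
  obtain ⟨hB1', hB2', e1', e2', i1', e3', e4', i2', e5', i3'⟩ := h'
  have Ea : a = a' := ha.trans ha'.symm
  have Ey1 : y1 = y1' := hy1.trans hy1'.symm
  have Ex2 : x2 = x2' := hx2.trans hx2'.symm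
  have Ey2 : y2 = y2' := hy2.trans hy2'.symm
  have a1 : 1 < a := by rw [ha]; exact a1Of c
  subst Ea Ey1 Ex2 Ey2
  exact ⟨hB1.trans hB1'.symm, rfl, rfl, quot_unique _ _ _ _ _ (hA c) e2 e2',
    hB2.trans hB2'.symm, rfl, rfl, quot_unique _ _ _ _ _ a1 e4 e4',
    fin_unique _ _ _ _ _ _ a1 e5 e5'⟩

end Vale.Agent.Lib.P345
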