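import Vale.Agent.Lib.P345.ExpDefs
import Vale.Agent.Lib.P345.Pow2Defs
import Vale.Agent.Lib.P345.JR2Defs
import Vale.Agent.Lib.P345.Graph
import Vale.Agent.Lib.P345.MultiProjS
import Vale.Agent.Lib.P345.MultiProjF
import Vale.Agent.Lib.P345.ExpTriv
import Vale.Agent.Lib.P345.Pow2

namespace Vale.Agent.Lib.P345

theorem SF_of_ESF' (hexp : SF ExpGraph) (n : ℕ) (S : Set (Fin n → ℕ)) (hS : ESF S) : SF S := by
  obtain ⟨m, E1, E2, hrep, hsf⟩ := hS
  have hT := SFG_eqSet (SFG_of_SF hexp) E1 E2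
  have h := SFG_multiProj hT hsf
  apply SF_of_SFG
  convert h using 1
  ext a
  exact hrep a

theorem FF_of_EFF' (hexp : FF ExpGraph) (n : ℕ) (S : Set (Fin n → ℕ)) (hS : EFF S) : FF S := by
  obtain ⟨m, E1, E2, hrep, hff⟩ := hS
  have hT := FFG_eqSet (FFG_of_FF hexp) E1 E2
  have h := FFG_multiProj hT hff
  apply FF_of_FFG
  convert h using 1
  ext a
  exact hrep a

theorem EFF_of_ESF' {n : ℕ} {S : Set (Fin n → ℕ)} (hS : ESF S) : EFF S := by
  obtain ⟨m, E1, E2, hrep, hsf⟩ := hS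
  refine ⟨m, E1, E2, hrep, fun a => ?_⟩
  apply Set.Subsingleton.finite
  intro w hw w' hw'
  exact hsf a w w' hw hw'

theorem SF_exp_of_pow2 (h : SF Pow2Graph) : SF ExpGraph :=
  SF_of_SFG (SFG_Exp_of_Pow2 (SFG_of_SF h))

theorem FF_exp_of_pow2 (h : FF Pow2Graph) : FF ExpGraph :=
  FF_of_FFG (FFG_Exp_of_Pow2 (FFG_of_FF h))

/-- the graph of a computable function is recursively enumerable -/
theorem graphFn_re {g : ℕ → ℕ} (hgc : Computable g) :
    REPred (fun v : Fin 2 → ℕ => v ∈ GraphFn g) := by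
  apply ComputablePred.to_re
  obtain ⟨inst, h⟩ := (Primrec.eq (α := ℕ))
  have h0 : Computable (fun v : Fin 2 → ℕ => v 0) :=
    (Primrec.fin_app.comp Primrec.id (Primrec.const 0)).to_comp
  have h1 : Computable (fun v : Fin 2 → ℕ => v 1) :=
    (Primrec.fin_app.comp Primrec.id (Primrec.const 1)).to_comp
  have h2 : Computable (fun v : Fin 2 → ℕ => g (v 1)) := hgc.comp h1
  exact ⟨fun v => inst (v 0, g (v 1)), h.to_comp.comp (h0.pair h2)⟩

end Vale.Agent.Lib.P345
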