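import Vale.Agent.Lib.P345.JR2Defs

namespace Vale.Agent.Lib.P345

theorem two_pow_le_pow_sub_two (a : ℕ) (ha : 8 ≤ a) : 2 ^ a ≤ a ^ (a - 2) := by
  calc 2 ^ a ≤ 2 ^ (3 * (a - 2)) := Nat.pow_le_pow_right (by norm_num) (by omega)
    _ = 8 ^ (a - 2) := by rw [pow_mul]; norm_num
    _ ≤ a ^ (a - 2) := Nat.pow_le_pow_left ha _

theorem expWindow_two_pow : ExpWindow (fun a => 2 ^ a) := by
  intro a ha
  exact ⟨le_rfl, two_pow_le_pow_sub_two a ha⟩

theorem two_pow_le_factorial (a : ℕ) (ha : 8 ≤ a) : 2 ^ a ≤ a.factorial := by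
  induction a, ha using Nat.le_induction with
  | base => decide
  | succ n hn ih =>
    rw [pow_succ, Nat.factorial_succ, mul_comm]
    exact Nat.mul_le_mul (by omega) ih

theorem factorial_le_pow_sub_two (a : ℕ) (ha : 8 ≤ a) : a.factorial ≤ a ^ (a - 2) := by
  induction a, ha using Nat.le_induction with
  | base => decide
  | succ n hn ih =>
    have e : n + 1 - 2 = (n - 2) + 1 := by omega
    rw [Nat.factorial_succ, e, pow_succ, mul_comm]
    refine Nat.mul_le_mul (ih.trans ?_) le_rfl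
    exact Nat.pow_le_pow_left (Nat.le_succ n) _

theorem expWindow_factorial : ExpWindow Nat.factorial := by
  intro a ha
  exact ⟨two_pow_le_factorial a ha, factorial_le_pow_sub_two a ha⟩

end Vale.Agent.Lib.P345
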