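import Vale.Agent.Lib.P345.JRDefs

namespace Vale.Agent.Lib.P345

/-- the factorial lies in the growth window -/
theorem window_factorial : Window Nat.factorial := by
  constructor
  · intro a k hak
    obtain ⟨m, rfl⟩ : ∃ m, a = m + 2 * k := ⟨a - 2 * k, by omega⟩
    have hm : 2 * k + 8 ≤ m := by omega
    have h1 : m.factorial * (m + 1) ^ (2 * k) ≤ (m + 2 * k).factorial :=
      Nat.factorial_mul_pow_le_factorial
    have h2 : (2 * (m + 2 * k)) ^ k ≤ (m + 1) ^ (2 * k) := by
      rw [pow_mul]
      apply Nat.pow_le_pow_left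
      nlinarith
    have h3 : 2 ≤ m.factorial := by
      calc 2 = (2 : ℕ).factorial := rfl
        _ ≤ m.factorial := Nat.factorial_le (by omega)
    have h4 : 0 < (m + 1) ^ (2 * k) := by positivity
    calc (2 * (m + 2 * k)) ^ k ≤ (m + 1) ^ (2 * k) := h2
      _ < 2 * (m + 1) ^ (2 * k) := by omega
      _ ≤ m.factorial * (m + 1) ^ (2 * k) := Nat.mul_le_mul_right _ h3
      _ ≤ (m + 2 * k).factorial := h1
  · intro a ha
    induction a, ha using Nat.le_induction with
    | base => norm_num [Nat.factorial]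
    | succ a ha ih =>
      obtain ⟨b, rfl⟩ : ∃ b, a = b + 2 := ⟨a - 2, by omega⟩
      have e1 : b + 2 - 2 = b := by omega
      have e2 : b + 2 + 1 - 2 = b + 1 := by omega
      rw [e1] at ih
      rw [e2, Nat.factorial_succ]
      calc (b + 2 + 1) * (b + 2).factorial ≤ (b + 2 + 1) * (b + 2) ^ b :=
            Nat.mul_le_mul_left _ ih
        _ ≤ (b + 2 + 1) * (b + 2 + 1) ^ b :=
            Nat.mul_le_mul_left _ (Nat.pow_le_pow_left (by omega) b)
        _ = (b + 2 + 1) ^ (b + 1) := by rw [pow_succ]; ring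

end Vale.Agent.Lib.P345
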